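import Mathlib
import Crest.Prelude.Def_AsymptoticConvexity

/-!
Shared tools for row 125 (S0166-S0169): closed finite-codimensional subspaces ("cof" sets),
an `l²`-type criterion for finding almost-members of cof sets, and an abstract criterion
showing that no equivalent norm is asymptotically uniformly convex.
Everything is stated for a type `X` with (global) normed-space instances; the `RealBanach`
predicates of the Prelude unfold to these by `Iff.rfl` (see the bridge lemmas at the end).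
-/

set_option autoImplicit false

namespace Crest.Agent.Helper4

open Crest.AnalysisR

section Cof

variable {X : Type*} [NormedAddCommGroup X] [NormedSpace ℝ X]

/-- `F` is (the carrier of) a closed linear subspace of finite codimension. -/
def Cof (F : Set X) : Prop :=
  ∃ S : Submodule ℝ X, (S : Set X) = F ∧ IsClosed F ∧ FiniteDimensional ℝ (X ⧸ S)

theorem Cof.zero_mem {F : Set X} (hF : Cof F) : (0 : X) ∈ F := by
  obtain ⟨S, rfl, -, -⟩ := hF
  exact S.zero_mem

theorem Cof.add_mem {F : Set X} (hF : Cof F) {x y : X} (hx : x ∈ F) (hy : y ∈ F) :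
    x + y ∈ F := by
  obtain ⟨S, rfl, -, -⟩ := hF
  exact S.add_mem hx hy

theorem Cof.sub_mem {F : Set X} (hF : Cof F) {x y : X} (hx : x ∈ F) (hy : y ∈ F) :
    x - y ∈ F := by
  obtain ⟨S, rfl, -, -⟩ := hF
  exact S.sub_mem hx hy

theorem Cof.smul_mem {F : Set X} (hF : Cof F) (a : ℝ) {x : X} (hx : x ∈ F) :
    a • x ∈ F := by
  obtain ⟨S, rfl, -, -⟩ := hF
  exact S.smul_mem a hx

theorem Cof.neg_mem {F : Set X} (hF : Cof F) {x : X} (hx : x ∈ F) : -x ∈ F := by
  obtain ⟨S, rfl, -, -⟩ := hF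
  exact S.neg_mem hx

/-- The kernel of a continuous linear map into a finite-dimensional space is cof. -/
theorem cof_ker {V : Type*} [NormedAddCommGroup V] [NormedSpace ℝ V] [FiniteDimensional ℝ V]
    (L : X →L[ℝ] V) : Cof {x : X | L x = 0} := by
  refine ⟨LinearMap.ker (L : X →ₗ[ℝ] V), ?_, ?_, ?_⟩
  · ext x; simp
  · exact isClosed_eq L.continuous continuous_const
  · exact (LinearMap.quotKerEquivRange (L : X →ₗ[ℝ] V)).symm.finiteDimensional

/-- Structure of a cof set: it is the kernel of a continuous linear map `q` onto a Euclidean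
space, and every vector is within `C * ‖q v‖` of the set. -/
theorem Cof.data {F : Set X} (hF : Cof F) :
    ∃ (k : ℕ) (q : X →L[ℝ] EuclideanSpace ℝ (Fin k)) (C : ℝ), 0 ≤ C ∧
      (∀ x, x ∈ F ↔ q x = 0) ∧ ∀ v : X, ∃ v' ∈ F, ‖v - v'‖ ≤ C * ‖q v‖ := by
  obtain ⟨S, rfl, hcl, hfin⟩ := hF
  have : IsClosed (S : Set X) := hcl
  have := hfin
  let e : (X ⧸ S) ≃L[ℝ] EuclideanSpace ℝ (Fin (Module.finrank ℝ (X ⧸ S))) := toEuclidean
  let q : X →L[ℝ] EuclideanSpace ℝ (Fin (Module.finrank ℝ (X ⧸ S))) :=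
    (e : (X ⧸ S) →L[ℝ] _).comp S.mkQL
  have hq : ∀ x, x ∈ (S : Set X) ↔ q x = 0 := by
    intro x
    change x ∈ S ↔ e (S.mkQ x) = 0
    rw [e.map_eq_zero_iff, Submodule.mkQ_apply, Submodule.Quotient.mk_eq_zero]
  have hsurj : LinearMap.range q.toLinearMap = ⊤ := by
    rw [LinearMap.range_eq_top]
    intro w
    obtain ⟨x, hx⟩ := S.mkQ_surjective (e.symm w)
    refine ⟨x, ?_⟩
    change e (S.mkQ x) = w
    rw [hx, e.apply_symm_apply]
  obtain ⟨g, hg⟩ := q.exists_rightInverse_of_surjective hsurj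
  refine ⟨_, q, ‖g‖, norm_nonneg _, hq, fun v => ⟨v - g (q v), ?_, ?_⟩⟩
  · rw [hq, map_sub]
    have : q (g (q v)) = q v := by
      have := congrArg (fun T => T (q v)) hg
      simpa using this
    rw [this, sub_self]
  · rw [sub_sub_cancel]
    exact g.le_opNorm _

theorem cof_univ : Cof (Set.univ : Set X) := by
  have h := cof_ker (0 : X →L[ℝ] ℝ)
  simpa using h

theorem Cof.inter {F G : Set X} (hF : Cof F) (hG : Cof G) : Cof (F ∩ G) := by
  obtain ⟨k, q, C, -, hq, -⟩ := hF.data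
  obtain ⟨k', q', C', -, hq', -⟩ := hG.data
  have h := cof_ker (q.prod q')
  convert h using 1
  ext x
  simp [hq, hq', Prod.ext_iff]

/-- The common kernel of finitely many continuous linear functionals is cof. -/
theorem cof_ker_pi {ι : Type*} [Fintype ι] (φ : ι → X →L[ℝ] ℝ) :
    Cof {x : X | ∀ i, φ i x = 0} := by
  have h := cof_ker (ContinuousLinearMap.pi φ)
  convert h using 1
  ext x
  simp [funext_iff]

/-- **`l²`-criterion.** If all signed (more generally `[-1,1]`-weighted) finite sums of the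
`d n` have norm at most `σ * √(number of terms)`, then every cof set almost contains some
`d n`. -/
theorem exists_near_cof (d : ℕ → X) (σ : ℝ)
    (h : ∀ (A : Finset ℕ) (ε : ℕ → ℝ), (∀ n, |ε n| ≤ 1) →
      ‖∑ n ∈ A, ε n • d n‖ ≤ σ * Real.sqrt A.card)
    {F : Set X} (hF : Cof F) {δ : ℝ} (hδ : 0 < δ) :
    ∃ n, ∃ d' ∈ F, ‖d' - d n‖ ≤ δ := by
  obtain ⟨k, q, C, hC, hq, hnear⟩ := hF.data
  -- bound for the sum of all coordinates
  have hσ : 0 ≤ σ := by
    have := h {0} (fun _ => 0) (by simp)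
    simpa using this
  have key : ∀ m : ℕ, ∑ n ∈ Finset.range m, ∑ i : Fin k, |q (d n) i| ≤
      k * (‖q‖ * (σ * Real.sqrt m)) := by
    intro m
    rw [Finset.sum_comm]
    calc ∑ i : Fin k, ∑ n ∈ Finset.range m, |q (d n) i|
        ≤ ∑ _i : Fin k, ‖q‖ * (σ * Real.sqrt m) := by
          refine Finset.sum_le_sum fun i _ => ?_
          have h1 := h (Finset.range m) (fun n => SignType.sign (q (d n) i))
            (fun n => by
              rcases lt_trichotomy (q (d n) i) 0 with h0 | h0 | h0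
              · simp [sign_neg h0]
              · simp [h0]
              · simp [sign_pos h0])
          have h2 : ∑ n ∈ Finset.range m, |q (d n) i| =
              q (∑ n ∈ Finset.range m, ((SignType.sign (q (d n) i) : ℝ)) • d n) i := by
            rw [map_sum]
            simp only [map_smul]
            rw [WithLp.ofLp_sum, Finset.sum_apply]
            refine Finset.sum_congr rfl fun n _ => ?_
            simp only [PiLp.smul_apply, smul_eq_mul]
            exact (sign_mul_self _).symm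
          rw [h2]
          calc q (∑ n ∈ Finset.range m, ((SignType.sign (q (d n) i) : ℝ)) • d n) i
              ≤ ‖q (∑ n ∈ Finset.range m, ((SignType.sign (q (d n) i) : ℝ)) • d n)‖ :=
                (le_abs_self _).trans (by
                  simpa [Real.norm_eq_abs] using PiLp.norm_apply_le (p := 2)
                    (q (∑ n ∈ Finset.range m, ((SignType.sign (q (d n) i) : ℝ)) • d n)) i)
            _ ≤ ‖q‖ * ‖∑ n ∈ Finset.range m, ((SignType.sign (q (d n) i) : ℝ)) • d n‖ :=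
                q.le_opNorm _
            _ ≤ ‖q‖ * (σ * Real.sqrt m) := by
                refine mul_le_mul_of_nonneg_left ?_ (norm_nonneg _)
                simpa using h1
      _ = k * (‖q‖ * (σ * Real.sqrt m)) := by simp
  -- choose m large
  set B : ℝ := k * (‖q‖ * σ) with hB
  have hB0 : 0 ≤ B := by positivity
  obtain ⟨m, hm⟩ : ∃ m : ℕ, 0 < m ∧ C * B < δ * Real.sqrt m := by
    obtain ⟨m, hm⟩ := exists_nat_gt ((C * B / δ) ^ 2 + 1)
    have hm0 : (0 : ℝ) < m := by
      have : (0 : ℝ) ≤ (C * B / δ) ^ 2 := sq_nonneg _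
      linarith
    refine ⟨m, by exact_mod_cast hm0, ?_⟩
    have h1 : C * B / δ < Real.sqrt m := by
      rw [Real.lt_sqrt (by positivity)]
      linarith
    calc C * B = δ * (C * B / δ) := by field_simp
      _ < δ * Real.sqrt m := mul_lt_mul_of_pos_left h1 hδ
  obtain ⟨hm0, hm⟩ := hm
  -- some n < m has small coordinate sum
  have hex : ∃ n ∈ Finset.range m, ∑ i : Fin k, |q (d n) i| ≤ B / Real.sqrt m := by
    by_contra hcon
    simp only [not_exists, not_and, not_le] at hcon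
    have hsqrt : 0 < Real.sqrt m := Real.sqrt_pos.2 (by exact_mod_cast hm0)
    have : ∑ n ∈ Finset.range m, B / Real.sqrt m <
        ∑ n ∈ Finset.range m, ∑ i : Fin k, |q (d n) i| :=
      Finset.sum_lt_sum_of_nonempty (Finset.nonempty_range_iff.2 hm0.ne') hcon
    rw [Finset.sum_const, Finset.card_range, nsmul_eq_mul] at this
    have h3 := key m
    have h4 : (m : ℝ) * (B / Real.sqrt m) = B * Real.sqrt m := by
      have hm' : (m : ℝ) = Real.sqrt m * Real.sqrt m :=
        (Real.mul_self_sqrt (by positivity)).symm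
      field_simp
      nlinarith [hm']
    rw [h4] at this
    have h5 : (k : ℝ) * (‖q‖ * (σ * Real.sqrt m)) = B * Real.sqrt m := by rw [hB]; ring
    linarith
  obtain ⟨n, -, hn⟩ := hex
  obtain ⟨v', hv'F, hv'⟩ := hnear (d n)
  refine ⟨n, v', hv'F, ?_⟩
  rw [norm_sub_rev]
  have hsqrt : 0 < Real.sqrt m := Real.sqrt_pos.2 (by exact_mod_cast hm0)
  have h6 : ‖q (d n)‖ ≤ ∑ i : Fin k, |q (d n) i| := by
    rw [EuclideanSpace.norm_eq]
    refine Real.sqrt_le_iff.2 ⟨Finset.sum_nonneg fun i _ => abs_nonneg _, ?_⟩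
    calc ∑ i : Fin k, ‖q (d n) i‖ ^ 2 = ∑ i : Fin k, |q (d n) i| ^ 2 := by
          simp [Real.norm_eq_abs]
      _ ≤ (∑ i : Fin k, |q (d n) i|) ^ 2 :=
          Finset.sum_sq_le_sq_sum_of_nonneg fun i _ => abs_nonneg _
  calc ‖d n - v'‖ ≤ C * ‖q (d n)‖ := hv'
    _ ≤ C * (B / Real.sqrt m) := mul_le_mul_of_nonneg_left (h6.trans hn) hC
    _ ≤ δ := by
      rw [← mul_div_assoc, div_le_iff₀ hsqrt]
      exact hm.le

end Cof

section AUC

variable {X : Type*} [NormedAddCommGroup X] [NormedSpace ℝ X]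

/-- `N` is a norm equivalent to the given one (unbundled form of `RealBanach.IsEquivNorm`). -/
def EquivNorm (N : X → ℝ) : Prop :=
  (∀ x y : X, N (x + y) ≤ N x + N y) ∧ (∀ (a : ℝ) (x : X), N (a • x) = |a| * N x) ∧
    ∃ a b : ℝ, 0 < a ∧ ∀ x : X, a * ‖x‖ ≤ N x ∧ N x ≤ b * ‖x‖

/-- `N` is asymptotically uniformly convex (unbundled form of `RealBanach.IsAUC`). -/
def AUC (N : X → ℝ) : Prop :=
  ∀ t : ℝ, 0 < t → ∃ c : ℝ, 0 < c ∧ ∀ x : X, N x = 1 → ∃ F : Set X, Cof F ∧
    ∀ y ∈ F, N y = 1 → c ≤ N (x + t • y) - 1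

/-- Convexity step: if `N xh = 1` and `N (xh + t₀ • yh) ≥ 1 + c` then the same holds at every
larger parameter. -/
theorem convex_step {N : X → ℝ} (hadd : ∀ x y : X, N (x + y) ≤ N x + N y)
    (hhom : ∀ (a : ℝ) (x : X), N (a • x) = |a| * N x) {xh yh : X} {t₀ τ c : ℝ}
    (ht₀ : 0 < t₀) (hτ : t₀ ≤ τ) (hc : 0 ≤ c) (hx : N xh = 1)
    (h : 1 + c ≤ N (xh + t₀ • yh)) : 1 + c ≤ N (xh + τ • yh) := by
  have hτpos : 0 < τ := lt_of_lt_of_le ht₀ hτ
  obtain ⟨lam, hlam⟩ : ∃ lam : ℝ, lam = t₀ / τ := ⟨_, rfl⟩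
  have hlampos : 0 < lam := by rw [hlam]; positivity
  have hlamle : lam ≤ 1 := by rw [hlam, div_le_one hτpos]; exact hτ
  have hlt : lam * τ = t₀ := by rw [hlam]; field_simp
  have hcomb : xh + t₀ • yh = (1 - lam) • xh + lam • (xh + τ • yh) := by
    rw [smul_add, smul_smul, hlt, sub_smul, one_smul]
    abel
  have h2 : N (xh + t₀ • yh) ≤ (1 - lam) + lam * N (xh + τ • yh) := by
    rw [hcomb]
    refine (hadd _ _).trans ?_
    rw [hhom, hhom, hx, abs_of_nonneg (by linarith : (0:ℝ) ≤ 1 - lam),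
      abs_of_pos hlampos, mul_one]
  by_contra hcon
  have hcon' : N (xh + τ • yh) < 1 + c := not_le.1 hcon
  have : lam * N (xh + τ • yh) < lam * (1 + c) := mul_lt_mul_of_pos_left hcon' hlampos
  nlinarith

/-- **Chain criterion.** Suppose that for every `k` there are levels `D 0, …, D k` of vectors of
norm between `1/C` and `C` such that from every vector of level `j < k` one can move by a vector
`d` of norm `≥ κ` lying in any prescribed cof set and land (up to `δ`) in level `j + 1`.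
Then no equivalent norm is asymptotically uniformly convex. -/
theorem not_auc_of_chains {κ C : ℝ} (hκ : 0 < κ) (hC : 0 < C)
    (h : ∀ k : ℕ, ∃ D : ℕ → Set X, (D 0).Nonempty ∧
      (∀ j, ∀ x ∈ D j, 1 / C ≤ ‖x‖ ∧ ‖x‖ ≤ C) ∧
      ∀ j < k, ∀ x ∈ D j, ∀ F : Set X, Cof F → ∀ δ : ℝ, 0 < δ →
        ∃ d ∈ F, κ ≤ ‖d‖ ∧ ∃ x' ∈ D (j + 1), ‖x + d - x'‖ ≤ δ)
    {N : X → ℝ} (hN : EquivNorm N) : ¬ AUC N := by
  intro hauc
  obtain ⟨hadd, hhom, a, b, ha, hab⟩ := hN
  have hbpos : 0 < b := by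
    obtain ⟨D0, ⟨x0, hx0⟩, hb0, -⟩ := h 0
    have hx0n := (hb0 0 x0 hx0).1
    have h1 := hab x0
    have h2 : 0 < ‖x0‖ := lt_of_lt_of_le (by positivity) hx0n
    by_contra hb
    have hb' : b ≤ 0 := not_lt.1 hb
    nlinarith [h1.1, h1.2]
  set t₀ : ℝ := a * κ / (b * C) with ht₀
  have ht₀pos : 0 < t₀ := by positivity
  obtain ⟨c, hc, hcF⟩ := hauc t₀ ht₀pos
  obtain ⟨k, hk⟩ : ∃ k : ℕ, b * C < (1 + c) ^ k * (a / C) := by
    obtain ⟨k, hk⟩ := pow_unbounded_of_one_lt (b * C / (a / C)) (by linarith : 1 < 1 + c)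
    exact ⟨k, by rwa [div_lt_iff₀ (by positivity)] at hk⟩
  obtain ⟨D, ⟨x1, hx1⟩, hbd, hstep⟩ := h k
  have claim : ∀ j, j ≤ k → ∀ ε : ℝ, 0 < ε → ∃ x ∈ D j, (1 + c) ^ j * (a / C) - ε ≤ N x := by
    intro j
    induction j with
    | zero =>
      intro _ ε hε
      refine ⟨x1, hx1, ?_⟩
      have h1 := (hab x1).1
      have h2 := (hbd 0 x1 hx1).1
      have h3 : a / C ≤ a * ‖x1‖ := by
        rw [div_eq_mul_one_div]
        exact mul_le_mul_of_nonneg_left h2 ha.le
      simp only [pow_zero, one_mul]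
      linarith
    | succ j ih =>
      intro hj ε hε
      have h1c : 0 < 1 + c := by linarith
      obtain ⟨x, hx, hNx⟩ := ih (by omega) (ε / (2 * (1 + c))) (by positivity)
      obtain ⟨hxlo, hxhi⟩ := hbd j x hx
      have hxpos : 0 < ‖x‖ := lt_of_lt_of_le (by positivity) hxlo
      have hNxpos : 0 < N x := lt_of_lt_of_le (by positivity) (hab x).1
      have hNxle : N x ≤ b * C := (hab x).2.trans (mul_le_mul_of_nonneg_left hxhi hbpos.le)
      obtain ⟨xh, hxh⟩ : ∃ xh : X, xh = (N x)⁻¹ • x := ⟨_, rfl⟩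
      have hNxh : N xh = 1 := by
        rw [hxh, hhom, abs_of_pos (inv_pos.2 hNxpos), inv_mul_cancel₀ hNxpos.ne']
      obtain ⟨F, hFcof, hF⟩ := hcF xh hNxh
      obtain ⟨d, hdF, hdκ, x', hx', hclose⟩ :=
        hstep j (by omega) x hx F hFcof (ε / (2 * b)) (by positivity)
      have hNdge : a * κ ≤ N d := (mul_le_mul_of_nonneg_left hdκ ha.le).trans (hab d).1
      have hNdpos : 0 < N d := lt_of_lt_of_le (by positivity) hNdge
      obtain ⟨yh, hyh⟩ : ∃ yh : X, yh = (N d)⁻¹ • d := ⟨_, rfl⟩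
      have hNyh : N yh = 1 := by
        rw [hyh, hhom, abs_of_pos (inv_pos.2 hNdpos), inv_mul_cancel₀ hNdpos.ne']
      have hyhF : yh ∈ F := by rw [hyh]; exact hFcof.smul_mem _ hdF
      have hcle := hF yh hyhF hNyh
      obtain ⟨τ, hτ⟩ : ∃ τ : ℝ, τ = N d / N x := ⟨_, rfl⟩
      have hτge : t₀ ≤ τ := by
        rw [ht₀, hτ]
        exact div_le_div₀ hNdpos.le hNdge hNxpos hNxle
      have h3 : 1 + c ≤ N (xh + τ • yh) :=
        convex_step hadd hhom ht₀pos hτge hc.le hNxh (by linarith)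
      have h4 : xh + τ • yh = (N x)⁻¹ • (x + d) := by
        rw [hxh, hyh, hτ, smul_smul, smul_add]
        congr 2
        field_simp
      have h5 : (1 + c) * N x ≤ N (x + d) := by
        rw [h4, hhom, abs_of_pos (inv_pos.2 hNxpos)] at h3
        rw [inv_mul_eq_div, le_div_iff₀ hNxpos] at h3
        exact h3
      have h6 : N (x + d) ≤ N x' + ε / 2 := by
        have e1 : x + d = x' + (x + d - x') := by abel
        have e2 : N (x + d - x') ≤ ε / 2 := by
          refine (hab _).2.trans ?_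
          calc b * ‖x + d - x'‖ ≤ b * (ε / (2 * b)) := mul_le_mul_of_nonneg_left hclose hbpos.le
            _ = ε / 2 := by field_simp
        calc N (x + d) = N (x' + (x + d - x')) := by rw [← e1]
          _ ≤ N x' + N (x + d - x') := hadd _ _
          _ ≤ N x' + ε / 2 := by linarith
      refine ⟨x', hx', ?_⟩
      have h7 : (1 + c) * ((1 + c) ^ j * (a / C) - ε / (2 * (1 + c))) ≤ (1 + c) * N x :=
        mul_le_mul_of_nonneg_left hNx h1c.le
      have h8 : (1 + c) * ((1 + c) ^ j * (a / C) - ε / (2 * (1 + c))) =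
          (1 + c) ^ (j + 1) * (a / C) - ε / 2 := by
        rw [pow_succ]; field_simp
      linarith
  obtain ⟨x, hx, hNx⟩ := claim k le_rfl (((1 + c) ^ k * (a / C) - b * C) / 2) (by linarith)
  have hxhi := (hbd k x hx).2
  have hNxle : N x ≤ b * C := (hab x).2.trans (mul_le_mul_of_nonneg_left hxhi hbpos.le)
  linarith

/-- Self-similar special case of the chain criterion: a single nonempty set `D` of vectors of
norm between `1/C` and `C`, stable (up to `δ`) under moving by vectors of norm `≥ κ` taken from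
any cof set. -/
theorem not_auc_of_selfSimilar {κ C : ℝ} (hκ : 0 < κ) (hC : 0 < C) (D : Set X) (hD : D.Nonempty)
    (hbd : ∀ x ∈ D, 1 / C ≤ ‖x‖ ∧ ‖x‖ ≤ C)
    (hstep : ∀ x ∈ D, ∀ F : Set X, Cof F → ∀ δ : ℝ, 0 < δ →
        ∃ d ∈ F, κ ≤ ‖d‖ ∧ ∃ x' ∈ D, ‖x + d - x'‖ ≤ δ)
    {N : X → ℝ} (hN : EquivNorm N) : ¬ AUC N :=
  not_auc_of_chains hκ hC
    (fun _ => ⟨fun _ => D, hD, fun _ => hbd, fun _ _ => hstep⟩) hN

end AUC

section Bridge

/-- Bridge: the Prelude's `RealBanach.IsCof` is `Cof` for the packaged instances. -/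
theorem isCof_iff (E : RealBanach) (F : Set E.X) :
    E.IsCof F ↔ @Cof E.X E.normed E.space F := Iff.rfl

theorem isEquivNorm_iff (E : RealBanach) (N : E.X → ℝ) :
    E.IsEquivNorm N ↔ @EquivNorm E.X E.normed E.space N := Iff.rfl

theorem isAUC_iff (E : RealBanach) (N : E.X → ℝ) :
    E.IsAUC N ↔ @AUC E.X E.normed E.space N := Iff.rfl

end Bridge

end Crest.Agent.Helper4
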