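import Mathlib
import Crest.Agent.Helper4.Common

/-!
Backup/generic `l²`-sum lemma for S0166: if every block satisfies the asymptotic core inequality
then the `l²`-sum has averaged midpoint modulus at least `√(1 + t²/4) - 1`.
-/

set_option autoImplicit false

namespace Crest.Agent.Helper4

open scoped ENNReal

/-- the asymptotic core inequality of a block. -/
def BlockCore' (X : Type) [NormedAddCommGroup X] [NormedSpace ℝ X] : Prop :=
  ∀ (x : X) (ε : ℝ), 0 < ε → ∃ F : Set X, Cof F ∧ ∀ y ∈ F, ∀ a c : ℝ, 0 ≤ a → 0 < c →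
    a ^ 2 + c ^ 2 ≤ 1 → c ≤ 1 / 2 → 2 * a * ‖x‖ + c * ‖y‖ - ε ≤ ‖x + y‖ + ‖x - y‖

theorem real_block {X Y p q ε : ℝ} (hX : 0 ≤ X) (hY : 0 ≤ Y)
    (h1 : 2 * X ≤ p + q) (h2 : 2 * Y ≤ p + q)
    (h3 : ∀ a c : ℝ, 0 ≤ a → 0 < c → a ^ 2 + c ^ 2 ≤ 1 → c ≤ 1 / 2 →
      2 * a * X + c * Y - ε ≤ p + q) (hε : 0 ≤ ε) :
    Real.sqrt (4 * X ^ 2 + Y ^ 2) - ε ≤ p + q := by
  set r := Real.sqrt (4 * X ^ 2 + Y ^ 2) with hr
  have hr2 : r ^ 2 = 4 * X ^ 2 + Y ^ 2 := Real.sq_sqrt (by positivity)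
  have hr0 : 0 ≤ r := Real.sqrt_nonneg _
  by_cases hcase : 0 < Y ∧ 3 * Y ^ 2 ≤ 4 * X ^ 2
  · obtain ⟨hYpos, h34⟩ := hcase
    have hrpos : 0 < r := by
      rcases hr0.lt_or_eq with h | h
      · exact h
      · rw [← h] at hr2; nlinarith
    have hac : (2 * X / r) ^ 2 + (Y / r) ^ 2 ≤ 1 := by
      rw [div_pow, div_pow, ← add_div, div_le_one (by positivity)]
      nlinarith
    have hc2 : Y / r ≤ 1 / 2 := by
      rw [div_le_iff₀ hrpos]
      nlinarith
    have := h3 (2 * X / r) (Y / r) (by positivity) (by positivity) hac hc2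
    have e : 2 * (2 * X / r) * X + Y / r * Y = r := by
      field_simp
      nlinarith
    linarith
  · rw [not_and_or, not_lt, not_le] at hcase
    have hle : r ≤ p + q := by
      rcases hcase with h | h
      · have hY0 : Y = 0 := le_antisymm h hY
        have : r ≤ 2 * X := by
          rw [hr, hY0]
          apply Real.sqrt_le_iff.2
          constructor
          · positivity
          · nlinarith
        linarith
      · have : r ≤ 2 * Y := by
          rw [hr]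
          apply Real.sqrt_le_iff.2
          constructor
          · positivity
          · nlinarith
        linarith
    linarith

section

variable {G : ℕ → Type} [∀ k, NormedAddCommGroup (G k)] [∀ k, NormedSpace ℝ (G k)]

theorem hasSum_sq (z : lp G 2) : HasSum (fun k => ‖z k‖ ^ 2) (‖z‖ ^ 2) := by
  have := lp.hasSum_norm (p := 2) (by norm_num) z
  simpa using this

theorem sum_sq_le (z : lp G 2) (A : Finset ℕ) : ∑ k ∈ A, ‖z k‖ ^ 2 ≤ ‖z‖ ^ 2 :=
  sum_le_hasSum A (fun _ _ => sq_nonneg _) (hasSum_sq z)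

theorem exists_partial (z : lp G 2) {δ : ℝ} (hδ : 0 < δ) :
    ∃ n₀ : ℕ, ∀ n ≥ n₀, ‖z‖ ^ 2 - δ ≤ ∑ k ∈ Finset.range n, ‖z k‖ ^ 2 := by
  have h := (hasSum_sq z).tendsto_sum_nat
  have h2 := h.eventually_const_le (by linarith : ‖z‖ ^ 2 - δ < ‖z‖ ^ 2)
  exact Filter.eventually_atTop.1 h2

theorem cof_coord (k : ℕ) {Fk : Set (G k)} (hF : Cof Fk) : Cof {y : lp G 2 | y k ∈ Fk} := by
  obtain ⟨d, q, C, -, hq, -⟩ := hF.data
  have h := cof_ker (q.comp (lp.evalCLM ℝ G 2 k))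
  convert h using 1
  ext y
  exact hq (y k)

theorem cof_coords (Fs : ∀ k, Set (G k)) (hFs : ∀ k, Cof (Fs k)) :
    ∀ n : ℕ, Cof {y : lp G 2 | ∀ k < n, y k ∈ Fs k}
  | 0 => by
      have h : Cof (Set.univ : Set (lp G 2)) := cof_univ
      convert h using 1
      ext y
      simp
  | n + 1 => by
      have h := (cof_coords Fs hFs n).inter (cof_coord n (hFs n))
      convert h using 1
      ext y
      constructor
      · intro h
        exact ⟨fun k hk => h k (by omega), h n (by omega)⟩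
      · rintro ⟨h1, h2⟩ k hk
        rcases Nat.lt_succ_iff_lt_or_eq.1 hk with h | rfl
        · exact h1 k h
        · exact h2

/-- **Core `l²`-sum estimate.** -/
theorem lp_two_core (hG : ∀ k, BlockCore' (G k)) (t : ℝ) (ht : 0 < t) (x : lp G 2)
    (hx : ‖x‖ = 1) (η : ℝ) (hη : 0 < η) :
    ∃ F : Set (lp G 2), Cof F ∧ ∀ y ∈ F, ‖y‖ = 1 →
      2 * Real.sqrt (1 + t ^ 2 / 4) - η ≤ ‖x + t • y‖ + ‖x - t • y‖ := by
  wlog hη1 : η ≤ 1 generalizing η
  · obtain ⟨F, hF, h⟩ := this 1 one_pos le_rfl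
    exact ⟨F, hF, fun y hy hy1 => by have := h y hy hy1; linarith [not_le.1 hη1]⟩
  obtain ⟨n, hn⟩ := exists_partial x (δ := η / 8) (by positivity)
  have hxn := hn n le_rfl
  rw [hx] at hxn
  obtain ⟨ε', hε'⟩ : ∃ ε' : ℝ, ε' = η / (2 * ((n : ℝ) + 1)) := ⟨_, rfl⟩
  have hε'pos : 0 < ε' := by rw [hε']; positivity
  have hε'n : ε' * n ≤ η / 2 := by
    rw [hε', div_mul_eq_mul_div, div_le_div_iff₀ (by positivity) (by norm_num)]
    nlinarith [Nat.cast_nonneg (α := ℝ) n]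
  choose Fs hFs hcore using fun k => hG k (x k) ε' hε'pos
  refine ⟨{y | ∀ k < n, y k ∈ Fs k}, cof_coords Fs hFs n, fun y hy hy1 => ?_⟩
  obtain ⟨m₀, hm₀⟩ := exists_partial y (δ := η / (2 * t ^ 2)) (by positivity)
  obtain ⟨m, hm⟩ : ∃ m : ℕ, m = max m₀ n := ⟨_, rfl⟩
  have hmn : n ≤ m := by rw [hm]; exact le_max_right _ _
  have hym := hm₀ m (by rw [hm]; exact le_max_left _ _)
  rw [hy1] at hym
  obtain ⟨u, hu⟩ : ∃ u : lp G 2, u = t • y := ⟨_, rfl⟩
  rw [← hu]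
  have huk : ∀ k, u k = t • y k := fun k => by rw [hu]; rfl
  have hYk : ∀ k, ‖u k‖ = t * ‖y k‖ := fun k => by
    rw [huk, norm_smul, Real.norm_eq_abs, abs_of_pos ht]
  have hadd : ∀ k, (x + u) k = x k + u k := fun k => rfl
  have hsub : ∀ k, (x - u) k = x k - u k := fun k => rfl
  have h1 : ∀ k, 2 * ‖x k‖ ≤ ‖(x + u) k‖ + ‖(x - u) k‖ := by
    intro k
    rw [hadd, hsub]
    have := norm_add_le (x k + u k) (x k - u k)
    have e : x k + u k + (x k - u k) = (2 : ℝ) • x k := by rw [two_smul]; abel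
    rw [e, norm_smul] at this
    simpa using this
  have h2 : ∀ k, 2 * ‖u k‖ ≤ ‖(x + u) k‖ + ‖(x - u) k‖ := by
    intro k
    rw [hadd, hsub]
    have := norm_sub_le (x k + u k) (x k - u k)
    have e : x k + u k - (x k - u k) = (2 : ℝ) • u k := by rw [two_smul]; abel
    rw [e, norm_smul] at this
    simpa using this
  obtain ⟨w, hwdef⟩ : ∃ w : ℕ → ℝ, w = fun k =>
      if k < n then Real.sqrt (4 * ‖x k‖ ^ 2 + ‖u k‖ ^ 2) else ‖u k‖ := ⟨_, rfl⟩
  have hw : ∀ k, w k - (if k < n then ε' else 0) ≤ ‖(x + u) k‖ + ‖(x - u) k‖ := by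
    intro k
    by_cases hk : k < n
    · rw [hwdef]
      simp only [hk, if_true]
      refine real_block (norm_nonneg _) (norm_nonneg _) (h1 k) (h2 k) ?_ hε'pos.le
      intro a c ha hc hac hc2
      have hmem : u k ∈ Fs k := by
        rw [huk]; exact (hFs k).smul_mem t (hy k hk)
      exact hcore k (u k) hmem a c ha hc hac hc2
    · rw [hwdef]
      simp only [hk, if_false, sub_zero]
      linarith [h2 k, norm_nonneg (u k)]
  have hw0 : ∀ k, 0 ≤ w k := by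
    intro k
    rw [hwdef]
    by_cases hk : k < n
    · simp only [hk, if_true]; exact Real.sqrt_nonneg _
    · simp only [hk, if_false]; exact norm_nonneg _
  have hw2 : ∀ k, w k ^ 2 = (if k < n then 4 * ‖x k‖ ^ 2 else 0) + ‖u k‖ ^ 2 := by
    intro k
    rw [hwdef]
    by_cases hk : k < n
    · simp only [hk, if_true]; exact Real.sq_sqrt (by positivity)
    · simp only [hk, if_false, zero_add]
  obtain ⟨R2, hR2⟩ : ∃ R2 : ℝ, R2 = ∑ k ∈ Finset.range m, w k ^ 2 := ⟨_, rfl⟩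
  have hR2ge : 4 + t ^ 2 - η ≤ R2 := by
    rw [hR2, Finset.sum_congr rfl (fun k _ => hw2 k), Finset.sum_add_distrib, ← Finset.sum_filter]
    have hfil : (Finset.range m).filter (fun k => k < n) = Finset.range n := by
      ext k; simp only [Finset.mem_filter, Finset.mem_range]; omega
    rw [hfil, ← Finset.mul_sum]
    have e : ∑ k ∈ Finset.range m, ‖u k‖ ^ 2 = t ^ 2 * ∑ k ∈ Finset.range m, ‖y k‖ ^ 2 := by
      rw [Finset.mul_sum]
      exact Finset.sum_congr rfl fun k _ => by rw [hYk, mul_pow]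
    rw [e]
    have e2 : t ^ 2 * (1 ^ 2 - η / (2 * t ^ 2)) = t ^ 2 - η / 2 := by
      field_simp
    have e3 : t ^ 2 * (1 ^ 2 - η / (2 * t ^ 2)) ≤ t ^ 2 * ∑ k ∈ Finset.range m, ‖y k‖ ^ 2 :=
      mul_le_mul_of_nonneg_left hym (by positivity)
    linarith
  have hR2pos : 0 < R2 := by nlinarith [sq_nonneg t]
  obtain ⟨R, hR⟩ : ∃ R : ℝ, R = Real.sqrt R2 := ⟨_, rfl⟩
  have hRpos : 0 < R := by rw [hR]; exact Real.sqrt_pos.2 hR2pos
  have hRsq : R ^ 2 = R2 := by rw [hR]; exact Real.sq_sqrt hR2pos.le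
  have hCS : ∀ z : lp G 2, ∑ k ∈ Finset.range m, w k * ‖z k‖ ≤ R * ‖z‖ := by
    intro z
    have h3 := Finset.sum_mul_sq_le_sq_mul_sq (Finset.range m) w (fun k => ‖z k‖)
    have h4 : ∑ k ∈ Finset.range m, ‖z k‖ ^ 2 ≤ ‖z‖ ^ 2 := sum_sq_le z _
    have h5 : (∑ k ∈ Finset.range m, w k * ‖z k‖) ^ 2 ≤ (R * ‖z‖) ^ 2 := by
      rw [mul_pow, hRsq, hR2]
      exact h3.trans (mul_le_mul_of_nonneg_left h4 (Finset.sum_nonneg fun _ _ => sq_nonneg _))
    exact (abs_le_of_sq_le_sq' h5 (by positivity)).2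
  have hwR : ∀ k ∈ Finset.range m, w k ≤ R := by
    intro k hk
    have : w k ^ 2 ≤ R2 := by
      rw [hR2]
      exact Finset.single_le_sum (f := fun k => w k ^ 2) (fun _ _ => sq_nonneg _) hk
    rw [← hRsq] at this
    exact (abs_le_of_sq_le_sq' this hRpos.le).2
  have hsum : R2 - ε' * n * R ≤ ∑ k ∈ Finset.range m, w k * (‖(x + u) k‖ + ‖(x - u) k‖) := by
    have hA : ∑ k ∈ Finset.range m, w k * (w k - (if k < n then ε' else 0)) ≤
        ∑ k ∈ Finset.range m, w k * (‖(x + u) k‖ + ‖(x - u) k‖) :=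
      Finset.sum_le_sum fun k _ => mul_le_mul_of_nonneg_left (hw k) (hw0 k)
    have hB : ∑ k ∈ Finset.range m, w k * (w k - (if k < n then ε' else 0)) =
        R2 - ∑ k ∈ Finset.range m, (if k < n then w k * ε' else 0) := by
      rw [hR2, ← Finset.sum_sub_distrib]
      refine Finset.sum_congr rfl fun k _ => ?_
      by_cases hk : k < n <;> simp [hk] <;> ring
    have hC : ∑ k ∈ Finset.range m, (if k < n then w k * ε' else 0) ≤ ε' * n * R := by
      rw [← Finset.sum_filter]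
      have hfil : (Finset.range m).filter (fun k => k < n) = Finset.range n := by
        ext k; simp only [Finset.mem_filter, Finset.mem_range]; omega
      rw [hfil]
      calc ∑ k ∈ Finset.range n, w k * ε' ≤ ∑ _k ∈ Finset.range n, R * ε' := by
            refine Finset.sum_le_sum fun k hk => ?_
            refine mul_le_mul_of_nonneg_right (hwR k ?_) hε'pos.le
            rw [Finset.mem_range] at hk ⊢; omega
        _ = ε' * n * R := by simp; ring
    linarith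
  have hfinal : R2 - ε' * n * R ≤ R * (‖x + u‖ + ‖x - u‖) := by
    have e : ∑ k ∈ Finset.range m, w k * (‖(x + u) k‖ + ‖(x - u) k‖) =
        ∑ k ∈ Finset.range m, w k * ‖(x + u) k‖ + ∑ k ∈ Finset.range m, w k * ‖(x - u) k‖ := by
      rw [← Finset.sum_add_distrib]
      exact Finset.sum_congr rfl fun k _ => by ring
    have := hCS (x + u)
    have := hCS (x - u)
    linarith
  have hPQ : R - ε' * n ≤ ‖x + u‖ + ‖x - u‖ := by
    have : R * (R - ε' * n) ≤ R * (‖x + u‖ + ‖x - u‖) := by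
      have e : R * (R - ε' * n) = R2 - ε' * n * R := by rw [← hRsq]; ring
      rw [e]; exact hfinal
    exact le_of_mul_le_mul_left this hRpos
  -- lower bound for R
  have hB1 : 1 ≤ Real.sqrt (1 + t ^ 2 / 4) := by
    apply Real.one_le_sqrt.2; nlinarith [sq_nonneg t]
  have hBsq : Real.sqrt (1 + t ^ 2 / 4) ^ 2 = 1 + t ^ 2 / 4 := Real.sq_sqrt (by positivity)
  have hRge : 2 * Real.sqrt (1 + t ^ 2 / 4) - η / 2 ≤ R := by
    have h0 : 0 ≤ 2 * Real.sqrt (1 + t ^ 2 / 4) - η / 2 := by linarith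
    have : (2 * Real.sqrt (1 + t ^ 2 / 4) - η / 2) ^ 2 ≤ R ^ 2 := by
      rw [hRsq]
      nlinarith
    exact (abs_le_of_sq_le_sq' this hRpos.le).2
  linarith

/-- the three modulus bounds of S0166 for an `l²`-sum of blocks with the core inequality. -/
theorem lp_two_midpoint12' (hG : ∀ k, BlockCore' (G k)) (t : ℝ) (ht : 0 < t) (x : lp G 2)
    (hx : ‖x‖ = 1) (η : ℝ) (hη : 0 < η) :
    ∃ F : Set (lp G 2), Cof F ∧ ∀ y ∈ F, ‖y‖ = 1 →
      Real.sqrt (1 + t ^ 2 / 12) - 1 - η ≤ (‖x + t • y‖ + ‖x - t • y‖) / 2 - 1 := by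
  obtain ⟨F, hF, h⟩ := lp_two_core hG t ht x hx η hη
  refine ⟨F, hF, fun y hy hy1 => ?_⟩
  have := h y hy hy1
  have hmono : Real.sqrt (1 + t ^ 2 / 12) ≤ Real.sqrt (1 + t ^ 2 / 4) :=
    Real.sqrt_le_sqrt (by nlinarith [sq_nonneg t])
  linarith

theorem lp_two_midpoint4' (hG : ∀ k, BlockCore' (G k)) (t : ℝ) (ht : 0 < t) (x : lp G 2)
    (hx : ‖x‖ = 1) (η : ℝ) (hη : 0 < η) :
    ∃ F : Set (lp G 2), Cof F ∧ ∀ y ∈ F, ‖y‖ = 1 →
      (Real.sqrt (1 + t ^ 2 / 4) - 1) / 2 - η ≤ (‖x + t • y‖ + ‖x - t • y‖) / 2 - 1 := by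
  obtain ⟨F, hF, h⟩ := lp_two_core hG t ht x hx η hη
  refine ⟨F, hF, fun y hy hy1 => ?_⟩
  have := h y hy hy1
  have hB1 : 1 ≤ Real.sqrt (1 + t ^ 2 / 4) := by
    apply Real.one_le_sqrt.2; nlinarith [sq_nonneg t]
  linarith

theorem lp_two_maxmidpoint' (hG : ∀ k, BlockCore' (G k)) (t : ℝ) (ht : 0 < t) (x : lp G 2)
    (hx : ‖x‖ = 1) (η : ℝ) (hη : 0 < η) :
    ∃ F : Set (lp G 2), Cof F ∧ ∀ y ∈ F, ‖y‖ = 1 →
      Real.sqrt (1 + t ^ 2 / 4) - 1 - η ≤ max ‖x + t • y‖ ‖x - t • y‖ - 1 := by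
  obtain ⟨F, hF, h⟩ := lp_two_core hG t ht x hx η hη
  refine ⟨F, hF, fun y hy hy1 => ?_⟩
  have := h y hy hy1
  have h1 := le_max_left ‖x + t • y‖ ‖x - t • y‖
  have h2 := le_max_right ‖x + t • y‖ ‖x - t • y‖
  linarith

end

end Crest.Agent.Helper4
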