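import Mathlib
import Crest.Prelude.Def_TreePotentials

/-!
Combinatorics of test families on the tree `List ℕ` (row 125, S0166/S0168): an abstract
class of tests (`TestClass`) containing the four Prelude models, potentials, clipping, and the
"split" lemma producing the test functions used in the lower estimate of the midpoint modulus.
-/

set_option autoImplicit false

namespace Crest.Agent.Helper4

open Crest.AnalysisR.TreePotential

/-- increments of a potential function (inverse of `pathPotential`). -/
def incr (H : List ℕ → ℝ) : List ℕ → ℝ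
  | [] => H []
  | a :: v => H (a :: v) - H v

@[simp] theorem incr_nil (H : List ℕ → ℝ) : incr H [] = H [] := rfl

@[simp] theorem incr_cons (H : List ℕ → ℝ) (a : ℕ) (v : List ℕ) :
    incr H (a :: v) = H (a :: v) - H v := rfl

theorem pot_incr (H : List ℕ → ℝ) : ∀ s, pathPotential (incr H) s = H s
  | [] => rfl
  | a :: v => by simp [pathPotential, pot_incr H v]

@[simp] theorem pot_nil (f : List ℕ → ℝ) : pathPotential f [] = f [] := rfl

@[simp] theorem pot_cons (f : List ℕ → ℝ) (a : ℕ) (v : List ℕ) :
    pathPotential f (a :: v) = pathPotential f v + f (a :: v) := rfl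

theorem pot_zero : ∀ s, pathPotential (0 : List ℕ → ℝ) s = 0
  | [] => rfl
  | a :: v => by simp [pot_zero v]

theorem pot_neg (f : List ℕ → ℝ) : ∀ s, pathPotential (-f) s = -pathPotential f s
  | [] => rfl
  | a :: v => by simp [pot_neg f v]; ring

/-- potential of the indicator of a vertex: `1` on the subtree of `s`, `0` elsewhere. -/
theorem pot_single (s : List ℕ) :
    ∀ u, pathPotential (Pi.single s (1 : ℝ)) u = if s <:+ u then 1 else 0
  | [] => by
      by_cases h : s = []
      · subst h; simp
      · have : ¬ s <:+ [] := by simpa using h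
        simp [this, Ne.symm h]
  | a :: v => by
      rw [pot_cons, pot_single s v]
      by_cases h1 : s = a :: v
      · subst h1
        have : ¬ (a :: v) <:+ v := fun h => by
          have := h.length_le; simp at this
        simp [this]
      · by_cases h2 : s <:+ v
        · have : s <:+ a :: v := List.suffix_cons_iff.2 (Or.inr h2)
          simp [h2, this, Ne.symm h1]
        · have : ¬ s <:+ a :: v := fun h => by
            rcases List.suffix_cons_iff.1 h with h | h
            · exact h1 h
            · exact h2 h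
          simp [h2, this, Ne.symm h1]

theorem pot_single_self (s : List ℕ) : pathPotential (Pi.single s (1 : ℝ)) s = 1 := by
  rw [pot_single]; simp

theorem pot_single_abs_le (s u : List ℕ) : |pathPotential (Pi.single s (1 : ℝ)) u| ≤ 1 := by
  rw [pot_single]; split_ifs <;> simp

/-- potential of an indicator-restricted family, on a down-closed set. -/
theorem pot_indicator_mem {T : Set (List ℕ)} (hT : ∀ a v, a :: v ∈ T → v ∈ T)
    (f : List ℕ → ℝ) : ∀ s, s ∈ T → pathPotential (T.indicator f) s = pathPotential f s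
  | [], h => by simp [Set.indicator_of_mem h]
  | a :: v, h => by
      simp [Set.indicator_of_mem h, pot_indicator_mem hT f v (hT a v h)]

theorem pot_indicator_cons_notMem {T : Set (List ℕ)} (f : List ℕ → ℝ) {a : ℕ} {v : List ℕ}
    (h : a :: v ∉ T) : pathPotential (T.indicator f) (a :: v) = pathPotential (T.indicator f) v := by
  simp [Set.indicator_of_notMem h]

theorem pot_indicator_nil_notMem {T : Set (List ℕ)} (f : List ℕ → ℝ)
    (h : [] ∉ T) : pathPotential (T.indicator f) [] = 0 := by
  simp [Set.indicator_of_notMem h]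

theorem pot_indicator_abs_le {T : Set (List ℕ)} (hT : ∀ a v, a :: v ∈ T → v ∈ T)
    {f : List ℕ → ℝ} (hf : ∀ s, |pathPotential f s| ≤ 1) :
    ∀ s, |pathPotential (T.indicator f) s| ≤ 1
  | [] => by
      by_cases h : [] ∈ T
      · rw [pot_indicator_mem hT f _ h]; exact hf _
      · rw [pot_indicator_nil_notMem f h]; simp
  | a :: v => by
      by_cases h : a :: v ∈ T
      · rw [pot_indicator_mem hT f _ h]; exact hf _
      · rw [pot_indicator_cons_notMem f h]; exact pot_indicator_abs_le hT hf v

/-- clip to `[-1, 1]`. -/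
noncomputable def clip (x : ℝ) : ℝ := max (-1) (min x 1)

theorem abs_clip_le_one (x : ℝ) : |clip x| ≤ 1 := by
  unfold clip
  rw [abs_le]
  constructor
  · exact le_max_left _ _
  · exact max_le (by norm_num) (min_le_right _ _)

theorem clip_of_abs_le {x : ℝ} (h : |x| ≤ 1) : clip x = x := by
  unfold clip
  rw [abs_le] at h
  rw [min_eq_left h.2, max_eq_right h.1]

theorem abs_clip_sub_clip_le (x y : ℝ) : |clip x - clip y| ≤ |x - y| := by
  unfold clip
  rw [abs_le]
  rcases abs_cases (x - y) with ⟨h1, h2⟩ | ⟨h1, h2⟩ <;> rw [h1] <;>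
    simp only [max_def, min_def] <;> split_ifs <;> constructor <;> linarith

theorem clip_zero : clip 0 = 0 := clip_of_abs_le (by simp)

theorem abs_clip_le (x : ℝ) : |clip x| ≤ |x| := by
  have := abs_clip_sub_clip_le x 0
  simpa [clip_zero] using this

/-- excess of `w` beyond `[-κ, κ]`. -/
noncomputable def exc (κ w : ℝ) : ℝ := w - max (-κ) (min w κ)

theorem exc_zero {κ : ℝ} (hκ : 0 ≤ κ) : exc κ 0 = 0 := by
  unfold exc
  rw [min_eq_left hκ, max_eq_right (by linarith)]; simp

theorem exc_lip {κ : ℝ} (hκ : 0 ≤ κ) (w w' : ℝ) : |exc κ w - exc κ w'| ≤ |w - w'| := by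
  unfold exc
  rw [abs_le]
  rcases abs_cases (w - w') with ⟨h1, h2⟩ | ⟨h1, h2⟩ <;> rw [h1] <;>
    simp only [max_def, min_def] <;> split_ifs <;> constructor <;> linarith

theorem exc_abs_le {κ : ℝ} (hκ : 0 ≤ κ) (w : ℝ) : |exc κ w| ≤ |w| := by
  have := exc_lip hκ w 0
  simpa [exc_zero hκ] using this

theorem exc_nonneg {κ : ℝ} (hκ : 0 ≤ κ) {w : ℝ} (hw : 0 ≤ w) : 0 ≤ exc κ w ∧ exc κ w ≤ w := by
  unfold exc
  simp only [max_def, min_def]
  split_ifs <;> constructor <;> linarith

theorem exc_nonpos {κ : ℝ} (hκ : 0 ≤ κ) {w : ℝ} (hw : w ≤ 0) : w ≤ exc κ w ∧ exc κ w ≤ 0 := by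
  unfold exc
  simp only [max_def, min_def]
  split_ifs <;> constructor <;> linarith

/-- the key identity for the difference of two clipped potentials. -/
theorem clip_diff {c u w κ : ℝ} (hc : 0 < c) (hu : |u| ≤ 1) (hw : |c * w| ≤ 1)
    (hκ : c * κ = 1 - |u|) :
    clip (u + c * w) - clip (u - c * w) = c * (2 * w - exc κ w) := by
  have h1 : c * (2 * w - exc κ w) = c * w + max (-(c * κ)) (min (c * w) (c * κ)) := by
    unfold exc
    have : c * max (-κ) (min w κ) = max (-(c * κ)) (min (c * w) (c * κ)) := by
      rw [mul_max_of_nonneg _ _ hc.le, mul_min_of_nonneg _ _ hc.le]; ring_nf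
    rw [← this]; ring
  rw [h1, hκ]
  unfold clip
  rw [abs_le] at hu hw
  rcases abs_cases u with ⟨h2, h3⟩ | ⟨h2, h3⟩ <;> rw [h2] <;>
    simp only [max_def, min_def] <;> split_ifs <;> linarith

/-- An abstract class of "tests" on the tree. -/
structure TestClass (P : (List ℕ → ℝ) → Prop) : Prop where
  zero : P 0
  pot_le : ∀ f, P f → ∀ s, |pathPotential f s| ≤ 1
  comb : ∀ f g h a c, P f → P g → a ^ 2 + c ^ 2 ≤ 1 → (∀ s, |pathPotential h s| ≤ 1) →
    (∀ s, h s ^ 2 ≤ a ^ 2 * f s ^ 2 + c ^ 2 * g s ^ 2) → P h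
  sib : ∀ f, P f → ∀ (s : List ℕ) (A : Finset ℕ), ∑ n ∈ A, f (n :: s) ^ 2 ≤ 1
  delta : ∀ s, P (Pi.single s 1) ∨ ∀ f, P f → f s = 0

namespace TestClass

variable {P : (List ℕ → ℝ) → Prop} (hP : TestClass P)

include hP

/-- domination: a family with bounded potential dominated pointwise by a test is a test. -/
theorem dom {f h : List ℕ → ℝ} (hf : P f) (hpot : ∀ s, |pathPotential h s| ≤ 1)
    (hle : ∀ s, |h s| ≤ |f s|) : P h := by
  refine hP.comb f f h 1 0 hf hf (by norm_num) hpot (fun s => ?_)
  have := sq_le_sq.mpr (hle s)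
  nlinarith [sq_nonneg (f s)]

theorem neg {f : List ℕ → ℝ} (hf : P f) : P (-f) := by
  refine hP.dom hf (fun s => ?_) (fun s => by simp)
  rw [pot_neg, abs_neg]; exact hP.pot_le f hf s

theorem abs_le_two {f : List ℕ → ℝ} (hf : P f) : ∀ s, |f s| ≤ 2
  | [] => by
      have := hP.pot_le f hf []
      simp only [pot_nil] at this
      linarith
  | a :: v => by
      have h1 := hP.pot_le f hf (a :: v)
      have h2 := hP.pot_le f hf v
      simp only [pot_cons] at h1
      rw [abs_le] at h1 h2 ⊢
      constructor <;> linarith [h1.1, h1.2, h2.1, h2.2]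

/-- sibling Cauchy–Schwarz estimate. -/
theorem abs_sum_sib_le {f : List ℕ → ℝ} (hf : P f) (s : List ℕ) (A : Finset ℕ) (ε : ℕ → ℝ)
    (hε : ∀ n, |ε n| ≤ 1) : |∑ n ∈ A, ε n * f (n :: s)| ≤ Real.sqrt A.card := by
  refine Real.abs_le_sqrt ?_
  calc (∑ n ∈ A, ε n * f (n :: s)) ^ 2
      ≤ (∑ n ∈ A, ε n ^ 2) * ∑ n ∈ A, f (n :: s) ^ 2 := Finset.sum_mul_sq_le_sq_mul_sq _ _ _
    _ ≤ (A.card : ℝ) * 1 := by
        refine mul_le_mul ?_ (hP.sib f hf s A) (Finset.sum_nonneg fun _ _ => sq_nonneg _)
          (Nat.cast_nonneg _)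
        calc ∑ n ∈ A, ε n ^ 2 ≤ ∑ _n ∈ A, (1 : ℝ) := by
              refine Finset.sum_le_sum fun n _ => ?_
              have := hε n
              rw [abs_le] at this
              nlinarith [this.1, this.2]
          _ = A.card := by simp
    _ = A.card := mul_one _

/-- the mixed potential used for the tests `h₊`, `h₋`. -/
theorem mix {T : Set (List ℕ)} (hT : ∀ a v, a :: v ∈ T → v ∈ T)
    {f g : List ℕ → ℝ} (hf : P f) (hg : P g) {a c : ℝ} (ha : 0 ≤ a)
    (hac : a ^ 2 + c ^ 2 ≤ 1) :
    P (incr fun s => clip (a * pathPotential (T.indicator f) s +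
        c * (pathPotential g s - pathPotential (T.indicator g) s))) ∧
    ∀ s ∈ T, (incr fun s => clip (a * pathPotential (T.indicator f) s +
        c * (pathPotential g s - pathPotential (T.indicator g) s))) s = a * f s := by
  have ha1 : a ≤ 1 := by nlinarith [sq_nonneg c]
  have hF : ∀ s, |a * pathPotential (T.indicator f) s| ≤ 1 := by
    intro s
    rw [abs_mul, abs_of_nonneg ha]
    have := pot_indicator_abs_le hT (hP.pot_le f hf) s
    nlinarith [abs_nonneg (pathPotential (T.indicator f) s)]
  have hG0 : ∀ s ∈ T, pathPotential g s - pathPotential (T.indicator g) s = 0 := by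
    intro s hs; rw [pot_indicator_mem hT g s hs]; ring
  have hval : ∀ s ∈ T, (incr fun s => clip (a * pathPotential (T.indicator f) s +
        c * (pathPotential g s - pathPotential (T.indicator g) s))) s = a * f s := by
    intro s hs
    cases s with
    | nil =>
      simp only [incr_nil]
      rw [hG0 _ hs, mul_zero, add_zero, clip_of_abs_le (hF _), pot_indicator_mem hT f _ hs]
      simp
    | cons b v =>
      have hv := hT b v hs
      simp only [incr_cons]
      rw [hG0 _ hs, hG0 _ hv, mul_zero, add_zero, add_zero, clip_of_abs_le (hF _),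
        clip_of_abs_le (hF _), pot_indicator_mem hT f _ hs, pot_indicator_mem hT f _ hv]
      simp; ring
  refine ⟨hP.comb f g _ a c hf hg hac (fun s => ?_) (fun s => ?_), hval⟩
  · rw [pot_incr]; exact abs_clip_le_one _
  · by_cases hs : s ∈ T
    · rw [hval s hs]
      nlinarith [sq_nonneg (c * g s)]
    · have key : |(incr fun s => clip (a * pathPotential (T.indicator f) s +
          c * (pathPotential g s - pathPotential (T.indicator g) s))) s| ≤ |c * g s| := by
        cases s with
        | nil =>
          simp only [incr_nil]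
          rw [pot_indicator_nil_notMem f hs, pot_indicator_nil_notMem g hs]
          simp only [mul_zero, zero_add, sub_zero, pot_nil]
          exact abs_clip_le _
        | cons b v =>
          simp only [incr_cons]
          rw [pot_indicator_cons_notMem f hs, pot_indicator_cons_notMem g hs]
          refine (abs_clip_sub_clip_le _ _).trans (le_of_eq ?_)
          congr 1
          simp only [pot_cons]; ring
      have := sq_le_sq.mpr key
      nlinarith [sq_nonneg (a * f s)]

/-- **Split lemma.** -/
theorem split {T : Set (List ℕ)} (hT : ∀ a v, a :: v ∈ T → v ∈ T)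
    {f g : List ℕ → ℝ} (hf : P f) (hg : P g) {a c : ℝ} (ha : 0 ≤ a) (hc : 0 < c)
    (hac : a ^ 2 + c ^ 2 ≤ 1) (hc2 : c ≤ 1 / 2) :
    ∃ hp hm g' : List ℕ → ℝ, P hp ∧ P hm ∧ P g' ∧
      (∀ s ∈ T, hp s = a * f s ∧ hm s = a * f s) ∧
      ∀ s, s ∉ T → hp s - hm s = c * (2 * g s - g' s) := by
  have ha1 : a ≤ 1 := by nlinarith [sq_nonneg c]
  obtain ⟨hp1, hp2⟩ := hP.mix hT hf hg ha hac
  obtain ⟨hm1, hm2⟩ := hP.mix hT hf hg ha (c := -c) (by simpa using hac)
  set F₀ := pathPotential (T.indicator f) with hF₀
  set G₀ := pathPotential (T.indicator g) with hG₀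
  set G := pathPotential g with hG
  have hFabs : ∀ s, |F₀ s| ≤ 1 := pot_indicator_abs_le hT (hP.pot_le f hf)
  have hG0abs : ∀ s, |G₀ s| ≤ 1 := pot_indicator_abs_le hT (hP.pot_le g hg)
  have hGabs : ∀ s, |G s| ≤ 1 := hP.pot_le g hg
  have hF : ∀ s, |a * F₀ s| ≤ 1 := by
    intro s
    rw [abs_mul, abs_of_nonneg ha]
    nlinarith [abs_nonneg (F₀ s), hFabs s]
  have hcG : ∀ s, |c * (G s - G₀ s)| ≤ 1 := by
    intro s
    rw [abs_mul, abs_of_pos hc]
    have : |G s - G₀ s| ≤ 2 := by
      have h1 := hGabs s; have h2 := hG0abs s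
      rw [abs_le] at h1 h2 ⊢; constructor <;> linarith [h1.1, h1.2, h2.1, h2.2]
    nlinarith [abs_nonneg (G s - G₀ s)]
  let κ : List ℕ → ℝ := fun s => (1 - a * |F₀ s|) / c
  have hκ : ∀ s, 0 ≤ κ s := by
    intro s
    refine div_nonneg ?_ hc.le
    nlinarith [abs_nonneg (F₀ s), hFabs s]
  have hcκ : ∀ s, c * κ s = 1 - |a * F₀ s| := by
    intro s
    rw [abs_mul, abs_of_nonneg ha]
    simp only [κ]; field_simp
  have hG0 : ∀ s ∈ T, G s - G₀ s = 0 := by
    intro s hs; rw [hG₀, pot_indicator_mem hT g s hs]; ring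
  let R : List ℕ → ℝ := fun s => exc (κ s) (G s - G₀ s)
  have hdiff : ∀ s, clip (a * F₀ s + c * (G s - G₀ s)) - clip (a * F₀ s + -c * (G s - G₀ s))
      = c * (2 * (G s - G₀ s) - R s) := by
    intro s
    have := clip_diff hc (hF s) (hcG s) (hcκ s)
    rw [← this]; ring_nf
  have hg' : P (incr fun s => G₀ s + R s) := by
    refine hP.dom hg (fun s => ?_) (fun s => ?_)
    · rw [pot_incr]
      have h1 := hGabs s; have h2 := hG0abs s
      rw [abs_le] at h1 h2 ⊢
      rcases le_total 0 (G s - G₀ s) with h | h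
      · have := exc_nonneg (hκ s) h
        constructor <;> linarith [this.1, this.2, h1.1, h1.2, h2.1, h2.2]
      · have := exc_nonpos (hκ s) h
        constructor <;> linarith [this.1, this.2, h1.1, h1.2, h2.1, h2.2]
    · cases s with
      | nil =>
        simp only [incr_nil]
        by_cases hs : [] ∈ T
        · simp only [R]
          rw [hG0 _ hs, exc_zero (hκ _), add_zero, hG₀, pot_indicator_mem hT g _ hs]
          simp
        · have h0 : G₀ [] = 0 := pot_indicator_nil_notMem g hs
          simp only [R]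
          rw [h0, zero_add, sub_zero]
          simpa [hG] using exc_abs_le (hκ []) (G [])
      | cons b v =>
        simp only [incr_cons]
        by_cases hs : b :: v ∈ T
        · have hv := hT b v hs
          simp only [R]
          rw [hG0 _ hs, hG0 _ hv, exc_zero (hκ _), exc_zero (hκ _), add_zero, add_zero, hG₀,
            pot_indicator_mem hT g _ hs, pot_indicator_mem hT g _ hv]
          simp
        · have h0 : G₀ (b :: v) = G₀ v := pot_indicator_cons_notMem g hs
          have h1 : F₀ (b :: v) = F₀ v := pot_indicator_cons_notMem f hs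
          have hκ' : κ (b :: v) = κ v := by simp only [κ]; rw [h1]
          simp only [R]
          rw [h0, hκ']
          have := exc_lip (hκ v) (G (b :: v) - G₀ v) (G v - G₀ v)
          have e : G (b :: v) - G₀ v - (G v - G₀ v) = g (b :: v) := by
            simp only [hG, pot_cons]; ring
          rw [e] at this
          refine le_trans (le_of_eq ?_) this
          congr 1; ring
  refine ⟨_, _, _, hp1, hm1, hg', fun s hs => ⟨hp2 s hs, hm2 s hs⟩, fun s hs => ?_⟩
  cases s with
  | nil =>
    simp only [incr_nil]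
    have h0 : G₀ [] = 0 := pot_indicator_nil_notMem g hs
    have := hdiff []
    rw [this, h0]
    simp [hG]
  | cons b v =>
    simp only [incr_cons]
    have h0 : G₀ (b :: v) = G₀ v := pot_indicator_cons_notMem g hs
    have e1 := hdiff (b :: v)
    have e2 := hdiff v
    have e : G (b :: v) = G v + g (b :: v) := by simp only [hG, pot_cons]
    rw [h0, e] at e1 ⊢
    linear_combination e1 - e2

end TestClass

end Crest.Agent.Helper4
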