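import Mathlib
import Crest.Prelude.Def_TreePotentials
import Crest.Agent.Helper4.TreeTests

/-!
The four Prelude potential models are instances of the abstract `TestClass`.
-/

set_option autoImplicit false

namespace Crest.Agent.Helper4

open Crest.AnalysisR.TreePotential

theorem sum_sq_le_of_dom {ι : Type*} (A : Finset ι) (h f g : ι → ℝ) {a c : ℝ}
    (hac : a ^ 2 + c ^ 2 ≤ 1) (hle : ∀ i ∈ A, h i ^ 2 ≤ a ^ 2 * f i ^ 2 + c ^ 2 * g i ^ 2)
    (hf : ∑ i ∈ A, f i ^ 2 ≤ 1) (hg : ∑ i ∈ A, g i ^ 2 ≤ 1) : ∑ i ∈ A, h i ^ 2 ≤ 1 := by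
  calc ∑ i ∈ A, h i ^ 2 ≤ ∑ i ∈ A, (a ^ 2 * f i ^ 2 + c ^ 2 * g i ^ 2) := Finset.sum_le_sum hle
    _ = a ^ 2 * ∑ i ∈ A, f i ^ 2 + c ^ 2 * ∑ i ∈ A, g i ^ 2 := by
        rw [Finset.sum_add_distrib, Finset.mul_sum, Finset.mul_sum]
    _ ≤ a ^ 2 * 1 + c ^ 2 * 1 :=
        add_le_add (mul_le_mul_of_nonneg_left hf (sq_nonneg _))
          (mul_le_mul_of_nonneg_left hg (sq_nonneg _))
    _ ≤ 1 := by linarith

theorem sum_single_sq_le (s : List ℕ) (B : Finset (List ℕ)) :
    ∑ u ∈ B, ((Pi.single s (1 : ℝ) : List ℕ → ℝ) u) ^ 2 ≤ 1 := by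
  have : ∀ u, ((Pi.single s (1 : ℝ) : List ℕ → ℝ) u) ^ 2 = if u = s then 1 else 0 := by
    intro u
    by_cases h : u = s
    · subst h; simp
    · simp [h]
  rw [Finset.sum_congr rfl (fun u _ => this u), Finset.sum_ite_eq']
  split_ifs <;> norm_num

theorem sum_single_sq_sib_le (s r : List ℕ) (A : Finset ℕ) :
    ∑ n ∈ A, ((Pi.single s (1 : ℝ) : List ℕ → ℝ) (n :: r)) ^ 2 ≤ 1 := by
  have h := sum_single_sq_le s (A.image fun n => n :: r)
  rwa [Finset.sum_image (fun a _ b _ hab => (List.cons.inj hab).1)] at h

theorem sib_antichain (s : List ℕ) (A : Finset ℕ) :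
    IsTreeAntichain (A.image fun n => n :: s) := by
  intro u hu v hv huv hsuf
  rw [Finset.mem_image] at hu hv
  obtain ⟨n, -, rfl⟩ := hu
  obtain ⟨n', -, rfl⟩ := hv
  rcases List.suffix_cons_iff.1 hsuf with h | h
  · exact huv h
  · have := h.length_le
    simp at this

theorem isTest_class (m : PotentialModel) : TestClass (IsTest m) where
  zero := by
    refine ⟨fun s => by rw [pot_zero]; simp, ?_⟩
    cases m <;> simp [ExtraCondition]
  pot_le := fun f hf => hf.1
  comb := by
    intro f g h a c hf hg hac hpot hsq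
    refine ⟨hpot, ?_⟩
    cases m with
    | rootlessSibling =>
      refine ⟨?_, fun r A => ?_⟩
      · have h0 := hsq []
        rw [hf.2.1, hg.2.1] at h0
        have : h [] ^ 2 ≤ 0 := by simpa using h0
        exact pow_eq_zero_iff (two_ne_zero) |>.1 (le_antisymm this (sq_nonneg _))
      · exact sum_sq_le_of_dom A _ _ _ hac (fun n _ => hsq (n :: r)) (hf.2.2 r A) (hg.2.2 r A)
    | rootedSibling =>
      intro r A
      exact sum_sq_le_of_dom A _ _ _ hac (fun n _ => hsq (n :: r)) (hf.2 r A) (hg.2 r A)
    | antichain =>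
      refine ⟨?_, fun A hA => ?_⟩
      · refine (hf.2.1.union hg.2.1).subset ?_
        intro s hs
        by_contra hcon
        rw [Set.mem_union, not_or] at hcon
        have h1 : f s = 0 := by simpa using hcon.1
        have h2 : g s = 0 := by simpa using hcon.2
        have h0 := hsq s
        rw [h1, h2] at h0
        have : h s ^ 2 ≤ 0 := by simpa using h0
        exact hs (pow_eq_zero_iff (two_ne_zero) |>.1 (le_antisymm this (sq_nonneg _)))
      · exact sum_sq_le_of_dom A _ _ _ hac (fun u _ => hsq u) (hf.2.2 A hA) (hg.2.2 A hA)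
    | global =>
      intro A
      exact sum_sq_le_of_dom A _ _ _ hac (fun u _ => hsq u) (hf.2 A) (hg.2 A)
  sib := by
    intro f hf s A
    cases m with
    | rootlessSibling => exact hf.2.2 s A
    | rootedSibling => exact hf.2 s A
    | antichain =>
      have h := hf.2.2 _ (sib_antichain s A)
      rwa [Finset.sum_image (fun a _ b _ hab => (List.cons.inj hab).1)] at h
    | global =>
      have h := hf.2 (A.image fun n => n :: s)
      rwa [Finset.sum_image (fun a _ b _ hab => (List.cons.inj hab).1)] at h
  delta := by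
    intro s
    cases m with
    | rootlessSibling =>
      cases s with
      | nil => exact Or.inr fun f hf => hf.2.1
      | cons a v =>
        exact Or.inl ⟨pot_single_abs_le _, by simp, fun r A => sum_single_sq_sib_le _ r A⟩
    | rootedSibling =>
      exact Or.inl ⟨pot_single_abs_le _, fun r A => sum_single_sq_sib_le _ r A⟩
    | antichain =>
      refine Or.inl ⟨pot_single_abs_le _, ?_, fun A _ => sum_single_sq_le s A⟩
      refine (Set.finite_singleton s).subset ?_
      intro u hu
      by_contra hne
      exact hu (Pi.single_eq_of_ne hne 1)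
    | global =>
      exact Or.inl ⟨pot_single_abs_le _, fun A => sum_single_sq_le s A⟩

theorem isTest_single_cons (m : PotentialModel) (n : ℕ) (s : List ℕ) :
    IsTest m (Pi.single (n :: s) 1) := by
  rcases (isTest_class m).delta (n :: s) with h | h
  · exact h
  · exfalso
    cases m with
    | rootlessSibling =>
      have : IsTest .rootlessSibling (Pi.single (n :: s) 1) :=
        ⟨pot_single_abs_le _, by simp, fun r A => sum_single_sq_sib_le _ r A⟩
      simpa using h _ this
    | rootedSibling =>
      have : IsTest .rootedSibling (Pi.single (n :: s) 1) :=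
        ⟨pot_single_abs_le _, fun r A => sum_single_sq_sib_le _ r A⟩
      simpa using h _ this
    | antichain =>
      have : IsTest .antichain (Pi.single (n :: s) 1) := by
        refine ⟨pot_single_abs_le _, ?_, fun A _ => sum_single_sq_le _ A⟩
        refine (Set.finite_singleton (n :: s)).subset ?_
        intro u hu
        by_contra hne
        exact hu (Pi.single_eq_of_ne hne 1)
      simpa using h _ this
    | global =>
      have : IsTest .global (Pi.single (n :: s) 1) :=
        ⟨pot_single_abs_le _, fun A => sum_single_sq_le _ A⟩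
      simpa using h _ this

end Crest.Agent.Helper4
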