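import Mathlib
import Crest.Prelude.Def_TreePotentials
import Crest.Agent.Helper4.Common
import Crest.Agent.Helper4.TreeTests

/-!
The Banach space generated by an abstract class of tests on the tree (closure of the span of
the coordinate vectors in the bounded functions on the tests), its asymptotic "core"
inequality, and the absence of asymptotically uniformly convex renormings.
-/

set_option autoImplicit false

namespace Crest.Agent.Helper4

open Crest.AnalysisR.TreePotential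
open scoped ENNReal

variable {P : (List ℕ → ℝ) → Prop}

/-- ambient sup-norm space of bounded functions on the tests. -/
abbrev Amb (P : (List ℕ → ℝ) → Prop) : Type := lp (fun _ : {f : List ℕ → ℝ // P f} => ℝ) ⊤

/-- coordinate vector `f ↦ f s`. -/
noncomputable def coord (hP : TestClass P) (s : List ℕ) : Amb P :=
  ⟨fun f => f.1 s, memℓp_infty ⟨2, by
    rintro _ ⟨f, rfl⟩
    simpa [Real.norm_eq_abs] using hP.abs_le_two f.2 s⟩⟩

@[simp] theorem coord_apply (hP : TestClass P) (s : List ℕ) (f : {f : List ℕ → ℝ // P f}) :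
    coord hP s f = f.1 s := rfl

/-- the tree space of the class. -/
noncomputable def tspace (hP : TestClass P) : Submodule ℝ (Amb P) :=
  (Submodule.span ℝ (Set.range (coord hP))).topologicalClosure

/-- evaluation of a finitely supported array against a family. -/
noncomputable def ev (c : List ℕ →₀ ℝ) (f : List ℕ → ℝ) : ℝ := c.sum fun s a => a * f s

theorem ev_neg (c : List ℕ →₀ ℝ) (f : List ℕ → ℝ) : ev c (-f) = -ev c f := by
  unfold ev Finsupp.sum
  rw [← Finset.sum_neg_distrib]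
  refine Finset.sum_congr rfl fun s _ => ?_
  simp

theorem ev_zero (c : List ℕ →₀ ℝ) : ev c 0 = 0 := by
  unfold ev Finsupp.sum
  simp

theorem ev_single (c : List ℕ →₀ ℝ) (s : List ℕ) : ev c (Pi.single s 1) = c s := by
  unfold ev Finsupp.sum
  simp only [Pi.single_apply, mul_ite, mul_one, mul_zero, Finset.sum_ite_eq',
    Finsupp.mem_support_iff, ne_eq, ite_not]
  split_ifs with h
  · exact h.symm
  · rfl

/-- the vector of a finitely supported array. -/
noncomputable def lc (hP : TestClass P) : (List ℕ →₀ ℝ) →ₗ[ℝ] Amb P :=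
  Finsupp.linearCombination ℝ (coord hP)

theorem lc_apply (hP : TestClass P) (c : List ℕ →₀ ℝ) (f : {f : List ℕ → ℝ // P f}) :
    lc hP c f = ev c f.1 := by
  unfold lc ev
  rw [Finsupp.linearCombination_apply, Finsupp.sum, Finsupp.sum, lp.coeFn_sum, Finset.sum_apply]
  refine Finset.sum_congr rfl fun s _ => ?_
  rw [lp.coeFn_smul]; simp

theorem abs_apply_le (v : Amb P) (f : {f : List ℕ → ℝ // P f}) : |v f| ≤ ‖v‖ := by
  have := lp.norm_apply_le_norm (by simp) v f
  simpa [Real.norm_eq_abs] using this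

theorem exists_test_gt (hP : TestClass P) (c : List ℕ →₀ ℝ) {ε : ℝ} (hε : 0 < ε) :
    ∃ f, P f ∧ ‖lc hP c‖ - ε < ev c f := by
  by_contra hcon
  simp only [not_exists, not_and, not_lt] at hcon
  have : ‖lc hP c‖ ≤ ‖lc hP c‖ - ε := by
    by_cases h0 : 0 ≤ ‖lc hP c‖ - ε
    · refine lp.norm_le_of_forall_le h0 (fun f => ?_)
      rw [lc_apply, Real.norm_eq_abs, abs_le]
      refine ⟨?_, hcon f.1 f.2⟩
      have := hcon (-f.1) (hP.neg f.2)
      rw [ev_neg] at this; linarith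
    · have := hcon 0 hP.zero
      rw [ev_zero] at this
      exact absurd this h0
  linarith

theorem ev_eq_mul_of_forall {c : List ℕ →₀ ℝ} {T : Set (List ℕ)} (hc : ∀ s ∈ c.support, s ∈ T)
    {f f' : List ℕ → ℝ} {a : ℝ} (h : ∀ s ∈ T, f s = a * f' s) : ev c f = a * ev c f' := by
  unfold ev Finsupp.sum
  rw [Finset.mul_sum]
  refine Finset.sum_congr rfl fun s hs => ?_
  show c s * f s = a * (c s * f' s)
  rw [h s (hc s hs)]; ring

theorem ev_sub_eq_of_forall {c : List ℕ →₀ ℝ} {T : Set (List ℕ)} (hc : ∀ s ∈ c.support, s ∉ T)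
    {hp hm g g' : List ℕ → ℝ} {κ : ℝ} (h : ∀ s, s ∉ T → hp s - hm s = κ * (2 * g s - g' s)) :
    ev c hp - ev c hm = κ * (2 * ev c g - ev c g') := by
  unfold ev Finsupp.sum
  have key : ∀ s ∈ c.support, c s * hp s - c s * hm s = κ * (2 * (c s * g s) - c s * g' s) := by
    intro s hs
    have := h s (hc s hs)
    linear_combination (c s) * this
  rw [← Finset.sum_sub_distrib, Finset.sum_congr rfl key, ← Finset.mul_sum,
    Finset.sum_sub_distrib, ← Finset.mul_sum]

/-- **Core inequality** for finitely supported vectors. -/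
theorem core_fin (hP : TestClass P) {T : Set (List ℕ)} (hT : ∀ a v, a :: v ∈ T → v ∈ T)
    {cx cy : List ℕ →₀ ℝ} (hx : ∀ s ∈ cx.support, s ∈ T) (hy : ∀ s ∈ cy.support, s ∉ T)
    {a c : ℝ} (ha : 0 ≤ a) (hc : 0 < c) (hac : a ^ 2 + c ^ 2 ≤ 1) (hc2 : c ≤ 1 / 2) :
    2 * a * ‖lc hP cx‖ + c * ‖lc hP cy‖ ≤ ‖lc hP cx + lc hP cy‖ + ‖lc hP cx - lc hP cy‖ := by
  have ha1 : a ≤ 1 := by nlinarith [sq_nonneg c]
  refine le_of_forall_pos_le_add fun ε hε => ?_
  obtain ⟨f, hf, hfx⟩ := exists_test_gt hP cx (ε := ε / 3) (by positivity)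
  obtain ⟨g, hg, hgy⟩ := exists_test_gt hP cy (ε := ε / 3) (by positivity)
  obtain ⟨hp, hm, g', hhp, hhm, hg', h1, h2⟩ := hP.split hT hf hg ha hc hac hc2
  have e1 : ev cx hp = a * ev cx f := ev_eq_mul_of_forall hx (fun s hs => (h1 s hs).1)
  have e2 : ev cx hm = a * ev cx f := ev_eq_mul_of_forall hx (fun s hs => (h1 s hs).2)
  have e3 : ev cy hp - ev cy hm = c * (2 * ev cy g - ev cy g') := ev_sub_eq_of_forall hy h2
  have b1 : ev cx hp + ev cy hp ≤ ‖lc hP cx + lc hP cy‖ := by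
    have := abs_apply_le (lc hP cx + lc hP cy) ⟨hp, hhp⟩
    rw [lp.coeFn_add, Pi.add_apply, lc_apply, lc_apply] at this
    exact (le_abs_self _).trans this
  have b2 : ev cx hm - ev cy hm ≤ ‖lc hP cx - lc hP cy‖ := by
    have := abs_apply_le (lc hP cx - lc hP cy) ⟨hm, hhm⟩
    rw [lp.coeFn_sub, Pi.sub_apply, lc_apply, lc_apply] at this
    exact (le_abs_self _).trans this
  have b3 : ev cy g' ≤ ‖lc hP cy‖ := by
    have := abs_apply_le (lc hP cy) ⟨g', hg'⟩
    rw [lc_apply] at this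
    exact (le_abs_self _).trans this
  have m1 : a * (‖lc hP cx‖ - ε / 3) ≤ a * ev cx f := mul_le_mul_of_nonneg_left hfx.le ha
  have m2 : c * (‖lc hP cy‖ - ε / 3) ≤ c * ev cy g := mul_le_mul_of_nonneg_left hgy.le hc.le
  have m3 : c * ev cy g' ≤ c * ‖lc hP cy‖ := mul_le_mul_of_nonneg_left b3 hc.le
  have m4 : a * ε ≤ ε := by nlinarith
  have m5 : c * ε ≤ ε / 2 := by nlinarith
  nlinarith

theorem exists_lc_near (hP : TestClass P) {x : Amb P} (hx : x ∈ tspace hP) {ε : ℝ}
    (hε : 0 < ε) : ∃ c : List ℕ →₀ ℝ, ‖x - lc hP c‖ < ε := by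
  have hx' : x ∈ closure ((Submodule.span ℝ (Set.range (coord hP)) :
      Submodule ℝ (Amb P)) : Set (Amb P)) := hx
  obtain ⟨y, hy, hxy⟩ := Metric.mem_closure_iff.mp hx' ε hε
  obtain ⟨c, rfl⟩ := (Finsupp.mem_span_range_iff_exists_finsupp).mp hy
  refine ⟨c, ?_⟩
  rw [dist_eq_norm] at hxy
  exact hxy

/-- the set of all suffixes (ancestors) of members of a finite set. -/
noncomputable def downClosure (A : Finset (List ℕ)) : Finset (List ℕ) :=
  A.biUnion fun s => s.tails.toFinset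

theorem mem_downClosure {A : Finset (List ℕ)} {u : List ℕ} :
    u ∈ downClosure A ↔ ∃ s ∈ A, u <:+ s := by
  simp [downClosure]

theorem downClosure_closed (A : Finset (List ℕ)) (a : ℕ) (v : List ℕ)
    (h : a :: v ∈ (downClosure A : Set (List ℕ))) : v ∈ (downClosure A : Set (List ℕ)) := by
  rw [Finset.mem_coe, mem_downClosure] at h ⊢
  obtain ⟨s, hs, hsuf⟩ := h
  exact ⟨s, hs, (List.suffix_cons a v).trans hsuf⟩

theorem subset_downClosure (A : Finset (List ℕ)) {s : List ℕ} (hs : s ∈ A) :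
    s ∈ downClosure A := mem_downClosure.2 ⟨s, hs, List.suffix_refl s⟩

theorem coord_mem (hP : TestClass P) (s : List ℕ) : coord hP s ∈ tspace hP :=
  Submodule.le_topologicalClosure _ (Submodule.subset_span ⟨s, rfl⟩)

theorem lc_mem (hP : TestClass P) (c : List ℕ →₀ ℝ) : lc hP c ∈ tspace hP := by
  refine Submodule.le_topologicalClosure _ ?_
  exact Finsupp.mem_span_range_iff_exists_finsupp.2 ⟨c, rfl⟩

theorem norm_coord_le (hP : TestClass P) (s : List ℕ) : ‖coord hP s‖ ≤ 2 :=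
  lp.norm_le_of_forall_le (by norm_num) fun f => by
    simpa [Real.norm_eq_abs] using hP.abs_le_two f.2 s

theorem coord_eq_zero (hP : TestClass P) {s : List ℕ} (h : ∀ f, P f → f s = 0) :
    coord hP s = 0 := by
  apply lp.ext
  funext f
  simpa using h f.1 f.2

/-- the evaluation functional at the indicator test of `s` (zero if it is not a test). -/
noncomputable def deltaFun (hP : TestClass P) (s : List ℕ) : tspace hP →L[ℝ] ℝ := by
  classical
  exact if h : P (Pi.single s 1) then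
    (lp.evalCLM ℝ (fun _ : {f : List ℕ → ℝ // P f} => ℝ) ⊤ ⟨_, h⟩).comp (tspace hP).subtypeL
  else 0

theorem deltaFun_apply (hP : TestClass P) {s : List ℕ} (h : P (Pi.single s 1))
    (y : tspace hP) : deltaFun hP s y = (y : Amb P) ⟨_, h⟩ := by
  unfold deltaFun
  rw [dif_pos h]
  rfl

/-- removing finitely many coordinates from an approximant. -/
theorem exists_lc_off (hP : TestClass P) (T : Finset (List ℕ)) (y : tspace hP)
    (hy : ∀ s ∈ T, deltaFun hP s y = 0) {ε : ℝ} (hε : 0 < ε) :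
    ∃ cy : List ℕ →₀ ℝ, (∀ s ∈ cy.support, s ∉ T) ∧ ‖(y : Amb P) - lc hP cy‖ ≤ ε := by
  classical
  have hpos : (0 : ℝ) < 1 + 2 * T.card := by positivity
  obtain ⟨c₁, hc₁⟩ := exists_lc_near hP y.2 (ε := ε / (1 + 2 * T.card)) (by positivity)
  set ε₂ := ε / (1 + 2 * T.card) with hε₂
  refine ⟨c₁ - ∑ s ∈ T, Finsupp.single s (c₁ s), ?_, ?_⟩
  · intro s hs hsT
    rw [Finsupp.mem_support_iff] at hs
    apply hs
    rw [Finsupp.sub_apply, Finsupp.finsetSum_apply]
    simp [Finsupp.single_apply, hsT]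
  · have e : lc hP (c₁ - ∑ s ∈ T, Finsupp.single s (c₁ s)) =
        lc hP c₁ - ∑ s ∈ T, c₁ s • coord hP s := by
      rw [map_sub, map_sum]
      congr 1
      refine Finset.sum_congr rfl fun s _ => ?_
      simp [lc]
    have hterm : ∀ s ∈ T, ‖c₁ s • coord hP s‖ ≤ 2 * ε₂ := by
      intro s hs
      rcases hP.delta s with h | h
      · rw [norm_smul, Real.norm_eq_abs]
        have h1 : |c₁ s| ≤ ε₂ := by
          have h2 := abs_apply_le ((y : Amb P) - lc hP c₁) ⟨_, h⟩
          rw [lp.coeFn_sub, Pi.sub_apply, lc_apply, ev_single, ← deltaFun_apply hP h y,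
            hy s hs, zero_sub, abs_neg] at h2
          exact h2.trans hc₁.le
        have h3 := norm_coord_le hP s
        nlinarith [abs_nonneg (c₁ s), norm_nonneg (coord hP s)]
      · rw [coord_eq_zero hP h, smul_zero, norm_zero]
        positivity
    have hsum : ‖∑ s ∈ T, c₁ s • coord hP s‖ ≤ T.card * (2 * ε₂) := by
      refine (norm_sum_le _ _).trans ?_
      calc ∑ s ∈ T, ‖c₁ s • coord hP s‖ ≤ ∑ _s ∈ T, 2 * ε₂ := Finset.sum_le_sum hterm
        _ = T.card * (2 * ε₂) := by simp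
    rw [e]
    calc ‖(y : Amb P) - (lc hP c₁ - ∑ s ∈ T, c₁ s • coord hP s)‖
        = ‖((y : Amb P) - lc hP c₁) + ∑ s ∈ T, c₁ s • coord hP s‖ := by congr 1; abel
      _ ≤ ‖(y : Amb P) - lc hP c₁‖ + ‖∑ s ∈ T, c₁ s • coord hP s‖ := norm_add_le _ _
      _ ≤ ε₂ + T.card * (2 * ε₂) := add_le_add hc₁.le hsum
      _ = ε := by rw [hε₂]; field_simp

/-- **Asymptotic core inequality** in the tree space. -/
theorem asymp_core (hP : TestClass P) (x : tspace hP) {ε : ℝ} (hε : 0 < ε) :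
    ∃ F : Set (tspace hP), Cof F ∧ ∀ y ∈ F, ∀ a c : ℝ, 0 ≤ a → 0 < c → a ^ 2 + c ^ 2 ≤ 1 →
      c ≤ 1 / 2 → 2 * a * ‖x‖ + c * ‖y‖ - ε ≤ ‖x + y‖ + ‖x - y‖ := by
  classical
  obtain ⟨cx, hcx⟩ := exists_lc_near hP x.2 (ε := ε / 4) (by positivity)
  set T := downClosure cx.support with hT
  refine ⟨{y | ∀ s : T, deltaFun hP s.1 y = 0}, cof_ker_pi (fun s : T => deltaFun hP s.1), ?_⟩
  intro y hy a c ha hc hac hc2
  have ha1 : a ≤ 1 := by nlinarith [sq_nonneg c]
  have hy' : ∀ s ∈ T, deltaFun hP s y = 0 := fun s hs => hy ⟨s, hs⟩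
  suffices h : 2 * a * ‖x‖ + c * ‖y‖ ≤ ‖x + y‖ + ‖x - y‖ + ε by linarith
  refine le_of_forall_pos_le_add fun δ hδ => ?_
  obtain ⟨cy, hcy, hyn⟩ := exists_lc_off hP T y hy' (ε := δ / 3) (by positivity)
  have hcore := core_fin hP (downClosure_closed cx.support)
    (cx := cx) (cy := cy) (fun s hs => subset_downClosure _ hs) hcy ha hc hac hc2
  have nx : ‖x‖ = ‖(x : Amb P)‖ := rfl
  have ny : ‖y‖ = ‖(y : Amb P)‖ := rfl
  have nxy : ‖x + y‖ = ‖(x : Amb P) + (y : Amb P)‖ := rfl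
  have nxy' : ‖x - y‖ = ‖(x : Amb P) - (y : Amb P)‖ := rfl
  rw [nx, ny, nxy, nxy']
  have t1 : ‖(x : Amb P)‖ ≤ ‖lc hP cx‖ + ε / 4 := by
    have := norm_add_le ((x : Amb P) - lc hP cx) (lc hP cx)
    rw [sub_add_cancel] at this
    linarith
  have t2 : ‖(y : Amb P)‖ ≤ ‖lc hP cy‖ + δ / 3 := by
    have := norm_add_le ((y : Amb P) - lc hP cy) (lc hP cy)
    rw [sub_add_cancel] at this
    linarith
  have t3 : ‖lc hP cx + lc hP cy‖ ≤ ‖(x : Amb P) + (y : Amb P)‖ + ε / 4 + δ / 3 := by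
    have e : lc hP cx + lc hP cy = ((x : Amb P) + (y : Amb P)) -
        (((x : Amb P) - lc hP cx) + ((y : Amb P) - lc hP cy)) := by abel
    rw [e]
    have := norm_sub_le ((x : Amb P) + (y : Amb P))
      (((x : Amb P) - lc hP cx) + ((y : Amb P) - lc hP cy))
    have := norm_add_le ((x : Amb P) - lc hP cx) ((y : Amb P) - lc hP cy)
    linarith
  have t4 : ‖lc hP cx - lc hP cy‖ ≤ ‖(x : Amb P) - (y : Amb P)‖ + ε / 4 + δ / 3 := by
    have e : lc hP cx - lc hP cy = ((x : Amb P) - (y : Amb P)) -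
        (((x : Amb P) - lc hP cx) - ((y : Amb P) - lc hP cy)) := by abel
    rw [e]
    have := norm_sub_le ((x : Amb P) - (y : Amb P))
      (((x : Amb P) - lc hP cx) - ((y : Amb P) - lc hP cy))
    have := norm_sub_le ((x : Amb P) - lc hP cx) ((y : Amb P) - lc hP cy)
    linarith
  have m1 : a * ‖(x : Amb P)‖ ≤ a * (‖lc hP cx‖ + ε / 4) := mul_le_mul_of_nonneg_left t1 ha
  have m2 : c * ‖(y : Amb P)‖ ≤ c * (‖lc hP cy‖ + δ / 3) := mul_le_mul_of_nonneg_left t2 hc.le
  have m4 : a * ε ≤ ε := by nlinarith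
  have m5 : c * δ ≤ δ / 2 := by nlinarith
  nlinarith

/-- coordinate vector as an element of the tree space. -/
noncomputable def evec (hP : TestClass P) (s : List ℕ) : tspace hP :=
  ⟨coord hP s, coord_mem hP s⟩

theorem norm_sum_sib_le (hP : TestClass P) (s : List ℕ) (A : Finset ℕ) (ε : ℕ → ℝ)
    (hε : ∀ n, |ε n| ≤ 1) : ‖∑ n ∈ A, ε n • evec hP (n :: s)‖ ≤ 1 * Real.sqrt A.card := by
  rw [one_mul]
  have e : ((∑ n ∈ A, ε n • evec hP (n :: s) : tspace hP) : Amb P) =
      ∑ n ∈ A, ε n • coord hP (n :: s) := by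
    rw [Submodule.coe_sum]; rfl
  show ‖((∑ n ∈ A, ε n • evec hP (n :: s) : tspace hP) : Amb P)‖ ≤ _
  rw [e]
  refine lp.norm_le_of_forall_le (Real.sqrt_nonneg _) fun f => ?_
  rw [lp.coeFn_sum, Finset.sum_apply, Real.norm_eq_abs]
  have := hP.abs_sum_sib_le f.2 s A ε hε
  convert this using 2
  refine Finset.sum_congr rfl fun n _ => ?_
  rw [lp.coeFn_smul]; simp

theorem exists_child_near (hP : TestClass P) (s : List ℕ) {F : Set (tspace hP)} (hF : Cof F)
    {δ : ℝ} (hδ : 0 < δ) : ∃ n, ∃ d ∈ F, ‖d - evec hP (n :: s)‖ ≤ δ :=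
  exists_near_cof (fun n => evec hP (n :: s)) 1 (norm_sum_sib_le hP s) hF hδ

theorem one_le_norm_evec (hP : TestClass P) {s : List ℕ} (h : P (Pi.single s 1)) :
    1 ≤ ‖evec hP s‖ := by
  have := abs_apply_le (coord hP s) ⟨_, h⟩
  show 1 ≤ ‖coord hP s‖
  simpa using this

/-- branch vectors: sums of the coordinate vectors along the root path. -/
noncomputable def bvec (hP : TestClass P) : List ℕ → tspace hP
  | [] => evec hP []
  | a :: v => bvec hP v + evec hP (a :: v)

theorem bvec_apply (hP : TestClass P) : ∀ (s : List ℕ) (f : {f : List ℕ → ℝ // P f}),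
    (bvec hP s : Amb P) f = pathPotential f.1 s
  | [], f => rfl
  | a :: v, f => by
      show ((bvec hP v : Amb P) + coord hP (a :: v)) f = _
      rw [lp.coeFn_add, Pi.add_apply, bvec_apply hP v f]; rfl

theorem norm_bvec_le (hP : TestClass P) (s : List ℕ) : ‖bvec hP s‖ ≤ 1 := by
  show ‖(bvec hP s : Amb P)‖ ≤ 1
  refine lp.norm_le_of_forall_le zero_le_one fun f => ?_
  rw [bvec_apply, Real.norm_eq_abs]; exact hP.pot_le f.1 f.2 s

theorem one_le_norm_bvec (hP : TestClass P) {s : List ℕ} (h : P (Pi.single s 1)) :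
    1 ≤ ‖bvec hP s‖ := by
  have := abs_apply_le (bvec hP s : Amb P) ⟨_, h⟩
  rw [bvec_apply, pot_single_self] at this
  show 1 ≤ ‖(bvec hP s : Amb P)‖
  simpa using this

/-- one step along the tree inside a prescribed cof set. -/
theorem tree_step (hP : TestClass P) (s : List ℕ) (hs : ∀ n, P (Pi.single (n :: s) 1))
    {F : Set (tspace hP)} (hF : Cof F) {δ : ℝ} (hδ : 0 < δ) :
    ∃ d ∈ F, 1 / 2 ≤ ‖d‖ ∧ ∃ n, ‖bvec hP s + d - bvec hP (n :: s)‖ ≤ δ := by
  obtain ⟨n, d, hdF, hd⟩ := exists_child_near hP s hF (δ := min δ (1 / 2)) (by positivity)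
  refine ⟨d, hdF, ?_, n, ?_⟩
  · have h1 := one_le_norm_evec hP (hs n)
    have h2 := norm_sub_norm_le (evec hP (n :: s)) d
    rw [norm_sub_rev] at h2
    have := min_le_right δ (1 / 2)
    linarith
  · have : bvec hP s + d - bvec hP (n :: s) = d - evec hP (n :: s) := by
      show bvec hP s + d - (bvec hP s + evec hP (n :: s)) = _
      abel
    rw [this]; exact hd.trans (min_le_left _ _)

/-- no equivalent norm on the tree space is asymptotically uniformly convex. -/
theorem not_auc_tree (hP : TestClass P) (hδ : ∀ n s, P (Pi.single (n :: s) 1))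
    {N : tspace hP → ℝ} (hN : EquivNorm N) : ¬ AUC N := by
  refine not_auc_of_selfSimilar (κ := 1 / 2) (C := 1) (by norm_num) one_pos
    (Set.range fun p : ℕ × List ℕ => bvec hP (p.1 :: p.2)) ⟨_, ⟨(0, []), rfl⟩⟩ ?_ ?_ hN
  · rintro _ ⟨p, rfl⟩
    exact ⟨by simpa using one_le_norm_bvec hP (hδ p.1 p.2), by simpa using norm_bvec_le hP _⟩
  · rintro _ ⟨p, rfl⟩ F hF δ hδ'
    obtain ⟨d, hdF, hd, n, hn⟩ := tree_step hP (p.1 :: p.2) (fun n => hδ n _) hF hδ'
    exact ⟨d, hdF, hd, _, ⟨(n, p.1 :: p.2), rfl⟩, hn⟩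

theorem tspace_separable (hP : TestClass P) : TopologicalSpace.SeparableSpace (tspace hP) := by
  have h1 : TopologicalSpace.IsSeparable (Set.range (coord hP)) :=
    (Set.countable_range _).isSeparable
  have h2 : TopologicalSpace.IsSeparable ((Submodule.span ℝ (Set.range (coord hP)) :
      Submodule ℝ (Amb P)) : Set (Amb P)) := h1.span
  have h3 : TopologicalSpace.IsSeparable ((tspace hP : Submodule ℝ (Amb P)) : Set (Amb P)) :=
    h2.closure
  exact h3.separableSpace

theorem tspace_not_finiteDimensional (hP : TestClass P) (hδ : ∀ n, P (Pi.single [n] 1)) :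
    ¬ FiniteDimensional ℝ (tspace hP) := by
  intro hfin
  have hF : Cof ({0} : Set (tspace hP)) := by
    have := cof_ker (ContinuousLinearMap.id ℝ (tspace hP))
    simpa using this
  obtain ⟨n, d, hd, hdn⟩ := exists_child_near hP [] hF (δ := 1 / 2) (by norm_num)
  rw [Set.mem_singleton_iff] at hd
  rw [hd, zero_sub, norm_neg] at hdn
  have := one_le_norm_evec hP (hδ n)
  linarith

/-- the midpoint modulus bound of the tree space. -/
theorem tree_midpoint (hP : TestClass P) {t : ℝ} (ht : 0 < t) (ht1 : t < 1) (x : tspace hP)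
    (hx : ‖x‖ = 1) {η : ℝ} (hη : 0 < η) :
    ∃ F : Set (tspace hP), Cof F ∧ ∀ y ∈ F, ‖y‖ = 1 →
      Real.sqrt (1 + t ^ 2 / 4) - 1 - η ≤ (‖x + t • y‖ + ‖x - t • y‖) / 2 - 1 := by
  obtain ⟨F, hF, h⟩ := asymp_core hP x (ε := 2 * η) (by positivity)
  refine ⟨F, hF, fun y hy hy1 => ?_⟩
  set r := Real.sqrt (1 + t ^ 2 / 4) with hr
  have hr1 : 1 ≤ r := by
    rw [hr]; apply Real.one_le_sqrt.2; nlinarith
  have hr2 : r ^ 2 = 1 + t ^ 2 / 4 := by rw [hr]; exact Real.sq_sqrt (by positivity)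
  have hrpos : 0 < r := by linarith
  have h1 := h (t • y) (hF.smul_mem t hy) (1 / r) (t / 2 / r) (by positivity) (by positivity)
    (by
      have : (1 / r) ^ 2 + (t / 2 / r) ^ 2 = (1 + t ^ 2 / 4) / r ^ 2 := by field_simp; ring
      rw [this, hr2, div_self (by positivity)])
    (by
      rw [div_le_iff₀ hrpos]; nlinarith)
  rw [norm_smul, Real.norm_eq_abs, abs_of_pos ht, hx, hy1, mul_one, mul_one] at h1
  have h2 : 2 * (1 / r) + t / 2 / r * t = 2 * r := by
    field_simp; nlinarith [hr2]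
  linarith

end Crest.Agent.Helper4
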