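import Mathlib
import Crest.Prelude.Def_TreePotentials
import Crest.Agent.Helper4.Common
import Crest.Agent.Helper4.TreeTests
import Crest.Agent.Helper4.TreeSpace
import Crest.Agent.Helper4.TreeModels

/-!
The depth-`k` global tree class and its tree space (the blocks of the `l²`-sum used for S0166):
it is a `TestClass`, and its space is isomorphic to a Hilbert space.
-/

set_option autoImplicit false

namespace Crest.Agent.Helper4

open Crest.AnalysisR.TreePotential
open scoped ENNReal RealInnerProductSpace

/-- tests of the depth-`k` global model. -/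
def Pk (k : ℕ) (f : List ℕ → ℝ) : Prop :=
  (∀ s, |pathPotential f s| ≤ 1) ∧ (∀ A : Finset (List ℕ), ∑ u ∈ A, f u ^ 2 ≤ 1) ∧
    ∀ s : List ℕ, k < s.length → f s = 0

theorem pk_single {k : ℕ} {s : List ℕ} (hs : s.length ≤ k) : Pk k (Pi.single s 1) := by
  refine ⟨pot_single_abs_le _, fun A => sum_single_sq_le s A, fun u hu => ?_⟩
  have : u ≠ s := fun h => by subst h; omega
  exact Pi.single_eq_of_ne this 1

theorem pk_class (k : ℕ) : TestClass (Pk k) where
  zero := ⟨fun s => by rw [pot_zero]; simp, fun A => by simp, fun s _ => rfl⟩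
  pot_le := fun f hf => hf.1
  comb := by
    intro f g h a c hf hg hac hpot hsq
    refine ⟨hpot, fun A => ?_, fun s hs => ?_⟩
    · exact sum_sq_le_of_dom A _ _ _ hac (fun u _ => hsq u) (hf.2.1 A) (hg.2.1 A)
    · have h0 := hsq s
      rw [hf.2.2 s hs, hg.2.2 s hs] at h0
      have : h s ^ 2 ≤ 0 := by simpa using h0
      exact pow_eq_zero_iff (two_ne_zero) |>.1 (le_antisymm this (sq_nonneg _))
  sib := by
    intro f hf s A
    have h := hf.2.1 (A.image fun n => n :: s)
    rwa [Finset.sum_image (fun a _ b _ hab => (List.cons.inj hab).1)] at h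
  delta := by
    intro s
    by_cases hs : s.length ≤ k
    · exact Or.inl (pk_single hs)
    · exact Or.inr fun f hf => hf.2.2 s (by omega)

/-- potential as a finite sum over the root path. -/
theorem pot_eq_sum_tails (g : List ℕ → ℝ) :
    ∀ s, pathPotential g s = ∑ u ∈ s.tails.toFinset, g u
  | [] => by simp
  | a :: v => by
      have hnot : (a :: v) ∉ v.tails.toFinset := by
        rw [List.mem_toFinset, List.mem_tails]
        intro h
        have := h.length_le
        simp at this
      rw [pot_cons, pot_eq_sum_tails g v, List.tails_cons, List.toFinset_cons,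
        Finset.sum_insert hnot, add_comm]

theorem pot_le_of_sum_le {g : List ℕ → ℝ} {B : ℝ}
    (h : ∀ A : Finset (List ℕ), ∑ u ∈ A, g u ≤ B) (s : List ℕ) : pathPotential g s ≤ B := by
  rw [pot_eq_sum_tails]; exact h _

/-- Cauchy–Schwarz along the root path for families vanishing below depth `k`. -/
theorem pot_sq_le (k : ℕ) (f : List ℕ → ℝ) (hf : ∀ s : List ℕ, k < s.length → f s = 0) :
    ∀ s : List ℕ, (pathPotential f s) ^ 2 ≤
      ((min s.length k : ℕ) + 1 : ℝ) * pathPotential (fun u => f u ^ 2) s
  | [] => by simp
  | a :: v => by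
      have ih := pot_sq_le k f hf v
      by_cases h : (a :: v).length ≤ k
      · have hv : v.length + 1 ≤ k := by simpa using h
        have e1 : min v.length k = v.length := by omega
        have e2 : min (a :: v).length k = v.length + 1 := by simp; omega
        rw [e1] at ih
        rw [e2, pot_cons, pot_cons]
        push_cast
        set p := pathPotential f v
        set S := pathPotential (fun u => f u ^ 2) v
        set x := f (a :: v)
        set m : ℝ := (v.length : ℝ) + 1 with hm
        have hmpos : 0 < m := by positivity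
        have key : m * (p + x) ^ 2 ≤ m * ((m + 1) * (S + x ^ 2)) := by
          have h1 : m * (p + x) ^ 2 = (m + 1) * p ^ 2 + m * (m + 1) * x ^ 2 - (p - m * x) ^ 2 := by
            ring
          have h2 : (m + 1) * p ^ 2 ≤ (m + 1) * (m * S) :=
            mul_le_mul_of_nonneg_left ih (by positivity)
          nlinarith [sq_nonneg (p - m * x)]
        exact le_of_mul_le_mul_left key hmpos
      · have hv : k < (a :: v).length := by omega
        have e2 : min (a :: v).length k = min v.length k := by
          simp at hv ⊢; omega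
        rw [e2, pot_cons, pot_cons, hf _ hv]
        simpa using ih

/-- a square-summable family of small norm vanishing below depth `k` is a depth-`k` test. -/
theorem pk_of_sum_le {k : ℕ} {f : List ℕ → ℝ} (hf : ∀ s : List ℕ, k < s.length → f s = 0)
    (hsum : ∀ A : Finset (List ℕ), ∑ u ∈ A, f u ^ 2 ≤ 1 / ((k : ℝ) + 1)) : Pk k f := by
  have hk : (0 : ℝ) < (k : ℝ) + 1 := by positivity
  have h1 : 1 / ((k : ℝ) + 1) ≤ 1 := by
    rw [div_le_one hk]; linarith
  refine ⟨fun s => ?_, fun A => (hsum A).trans h1, hf⟩
  have h2 := pot_sq_le k f hf s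
  have h3 : pathPotential (fun u => f u ^ 2) s ≤ 1 / ((k : ℝ) + 1) := pot_le_of_sum_le hsum s
  have h4 : ((min s.length k : ℕ) : ℝ) + 1 ≤ (k : ℝ) + 1 := by
    have : min s.length k ≤ k := min_le_right _ _
    have : ((min s.length k : ℕ) : ℝ) ≤ (k : ℝ) := by exact_mod_cast this
    linarith
  have h5 : (pathPotential f s) ^ 2 ≤ 1 := by
    calc (pathPotential f s) ^ 2
        ≤ ((min s.length k : ℕ) + 1 : ℝ) * pathPotential (fun u => f u ^ 2) s := h2
      _ ≤ ((min s.length k : ℕ) + 1 : ℝ) * (1 / ((k : ℝ) + 1)) :=
          mul_le_mul_of_nonneg_left h3 (by positivity)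
      _ ≤ ((k : ℝ) + 1) * (1 / ((k : ℝ) + 1)) :=
          mul_le_mul_of_nonneg_right h4 (by positivity)
      _ = 1 := by field_simp
  exact (sq_le_one_iff_abs_le_one _).1 h5

end Crest.Agent.Helper4
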