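import Mathlib
import Crest.Prelude.Def_TreePotentials
import Crest.Agent.Helper4.Common
import Crest.Agent.Helper4.TreeTests
import Crest.Agent.Helper4.TreeSpace
import Crest.Agent.Helper4.TreeModels
import Crest.Agent.Helper4.TreeBlocks
import Crest.Agent.Helper9.Reflexive

/-!
The tree space of the depth-`k` global class is isomorphic to a Hilbert space, hence reflexive.
-/

set_option autoImplicit false

namespace Crest.Agent.Helper4

open Crest.AnalysisR.TreePotential
open scoped ENNReal RealInnerProductSpace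

/-- the Hilbert space `ℓ²` over the vertices. -/
abbrev L2 : Type := lp (fun _ : List ℕ => ℝ) 2

instance tspace_complete {P : (List ℕ → ℝ) → Prop} (hP : TestClass P) :
    CompleteSpace (tspace hP) :=
  (Submodule.isClosed_topologicalClosure _).completeSpace_coe

theorem pk_memℓp {k : ℕ} (f : {f : List ℕ → ℝ // Pk k f}) :
    Memℓp (E := fun _ : List ℕ => ℝ) f.1 2 := by
  refine memℓp_gen' (C := 1) fun s => ?_
  have := f.2.2.1 s
  simpa [Real.norm_eq_abs, sq_abs] using this

/-- a depth-`k` test as an `ℓ²` vector. -/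
noncomputable def toL2 {k : ℕ} (f : {f : List ℕ → ℝ // Pk k f}) : L2 := ⟨f.1, pk_memℓp f⟩

theorem toL2_apply {k : ℕ} (f : {f : List ℕ → ℝ // Pk k f}) (s : List ℕ) :
    toL2 f s = f.1 s := rfl

theorem norm_toL2_le {k : ℕ} (f : {f : List ℕ → ℝ // Pk k f}) : ‖toL2 f‖ ≤ 1 := by
  refine lp.norm_le_of_forall_sum_le (by norm_num) zero_le_one fun s => ?_
  have := f.2.2.1 s
  simpa [Real.norm_eq_abs, sq_abs, toL2_apply] using this

theorem abs_inner_toL2_le {k : ℕ} (f : {f : List ℕ → ℝ // Pk k f}) (c : L2) :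
    |⟪toL2 f, c⟫| ≤ ‖c‖ := by
  have h1 := abs_real_inner_le_norm (toL2 f) c
  have h2 := norm_toL2_le f
  nlinarith [norm_nonneg c, norm_nonneg (toL2 f)]

/-- the map `ℓ² → ℓ^∞(tests)`, `c ↦ (f ↦ ⟪f, c⟫)`. -/
noncomputable def Jfun (k : ℕ) (c : L2) : Amb (Pk k) :=
  ⟨fun f => ⟪toL2 f, c⟫, memℓp_infty ⟨‖c‖, by
    rintro _ ⟨f, rfl⟩
    simpa [Real.norm_eq_abs] using abs_inner_toL2_le f c⟩⟩

theorem Jfun_apply (k : ℕ) (c : L2) (f : {f : List ℕ → ℝ // Pk k f}) :
    Jfun k c f = ⟪toL2 f, c⟫ := rfl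

/-- `Jfun` as a continuous linear map. -/
noncomputable def J (k : ℕ) : L2 →L[ℝ] Amb (Pk k) :=
  LinearMap.mkContinuous
    { toFun := Jfun k
      map_add' := fun c d => by
        apply lp.ext; funext f
        rw [lp.coeFn_add, Pi.add_apply, Jfun_apply, Jfun_apply, Jfun_apply, inner_add_right]
      map_smul' := fun a c => by
        apply lp.ext; funext f
        rw [lp.coeFn_smul, Pi.smul_apply, Jfun_apply, Jfun_apply, real_inner_smul_right]
        simp } 1
    (fun c => by
      rw [one_mul]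
      refine lp.norm_le_of_forall_le (norm_nonneg _) fun f => ?_
      show ‖Jfun k c f‖ ≤ ‖c‖
      rw [Jfun_apply, Real.norm_eq_abs]
      exact abs_inner_toL2_le f c)

theorem J_apply (k : ℕ) (c : L2) (f : {f : List ℕ → ℝ // Pk k f}) :
    J k c f = ⟪toL2 f, c⟫ := rfl

theorem J_single (k : ℕ) (s : List ℕ) :
    J k (lp.single 2 s (1 : ℝ)) = coord (pk_class k) s := by
  apply lp.ext; funext f
  rw [J_apply, lp.inner_single_right, coord_apply, toL2_apply]
  simp

theorem J_mem (k : ℕ) (c : L2) : J k c ∈ tspace (pk_class k) := by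
  have h1 := lp.hasSum_single (p := 2) (by norm_num) c
  have h2 : HasSum (fun s => J k (lp.single 2 s (c s))) (J k c) := (J k).hasSum h1
  refine (Submodule.isClosed_topologicalClosure _).mem_of_tendsto h2
    (Filter.Eventually.of_forall fun A => ?_)
  refine Submodule.sum_mem _ fun s _ => ?_
  have : lp.single 2 s (c s) = (c s) • lp.single (E := fun _ : List ℕ => ℝ) 2 s (1 : ℝ) := by
    rw [← lp.single_smul]; simp
  rw [this, map_smul, J_single]
  exact Submodule.smul_mem _ _ (coord_mem _ s)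

/-- the closed subspace of `ℓ²` of vectors supported on depth at most `k`. -/
def Hk (k : ℕ) : Submodule ℝ L2 where
  carrier := {c | ∀ s : List ℕ, k < s.length → c s = 0}
  add_mem' := fun {a b} ha hb s hs => by
    rw [lp.coeFn_add, Pi.add_apply, ha s hs, hb s hs, add_zero]
  zero_mem' := fun s _ => rfl
  smul_mem' := fun a c hc s hs => by
    rw [lp.coeFn_smul, Pi.smul_apply, hc s hs, smul_zero]

theorem Hk_closed (k : ℕ) : IsClosed (Hk k : Set L2) := by
  have : (Hk k : Set L2) = ⋂ s : List ℕ, ⋂ (_ : k < s.length),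
      {c : L2 | lp.evalCLM ℝ (fun _ : List ℕ => ℝ) 2 s c = 0} := by
    ext c
    simp only [Set.mem_iInter]
    rfl
  rw [this]
  exact isClosed_iInter fun s => isClosed_iInter fun _ =>
    isClosed_eq (lp.evalCLM ℝ (fun _ : List ℕ => ℝ) 2 s).continuous continuous_const

instance Hk_complete (k : ℕ) : CompleteSpace (Hk k) := (Hk_closed k).completeSpace_coe

/-- lower bound for `J` on `Hk k`. -/
theorem norm_le_J (k : ℕ) (c : L2) (hc : c ∈ Hk k) : ‖c‖ ≤ ((k : ℝ) + 1) * ‖J k c‖ := by
  have hk : (0 : ℝ) < (k : ℝ) + 1 := by positivity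
  by_cases h0 : ‖c‖ = 0
  · rw [h0]; positivity
  have hcpos : 0 < ‖c‖ := lt_of_le_of_ne (norm_nonneg _) (Ne.symm h0)
  set M : ℝ := ‖c‖ * Real.sqrt ((k : ℝ) + 1) with hM
  have hsq : 0 < Real.sqrt ((k : ℝ) + 1) := Real.sqrt_pos.2 hk
  have hMpos : 0 < M := by positivity
  have hM2 : M ^ 2 = ‖c‖ ^ 2 * ((k : ℝ) + 1) := by
    rw [hM, mul_pow, Real.sq_sqrt hk.le]
  have hsum : ∀ A : Finset (List ℕ), ∑ u ∈ A, (c u) ^ 2 ≤ ‖c‖ ^ 2 := by
    intro A
    have := lp.sum_rpow_le_norm_rpow (p := 2) (by norm_num) c A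
    simpa [Real.norm_eq_abs, sq_abs] using this
  have htest : Pk k (fun s => c s / M) := by
    refine pk_of_sum_le (fun s hs => by rw [hc s hs, zero_div]) fun A => ?_
    have : ∑ u ∈ A, (c u / M) ^ 2 = (∑ u ∈ A, (c u) ^ 2) / M ^ 2 := by
      rw [Finset.sum_div]
      refine Finset.sum_congr rfl fun u _ => ?_
      rw [div_pow]
    rw [this, hM2, div_le_div_iff₀ (by positivity) hk]
    nlinarith [hsum A]
  have hval : J k c ⟨_, htest⟩ = ‖c‖ ^ 2 / M := by
    rw [J_apply]
    have : toL2 ⟨_, htest⟩ = (1 / M) • c := by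
      apply lp.ext; funext s
      rw [lp.coeFn_smul, Pi.smul_apply, toL2_apply]
      simp [div_eq_inv_mul]
    rw [this, real_inner_smul_left, real_inner_self_eq_norm_sq]
    ring
  have hle := abs_apply_le (J k c) ⟨_, htest⟩
  rw [hval] at hle
  have h3 : ‖c‖ ^ 2 / M ≤ ‖J k c‖ := (le_abs_self _).trans hle
  have h4 : ‖c‖ ^ 2 / M = ‖c‖ / Real.sqrt ((k : ℝ) + 1) := by
    rw [hM]; field_simp
  rw [h4, div_le_iff₀ hsq] at h3
  have h5 : Real.sqrt ((k : ℝ) + 1) ≤ (k : ℝ) + 1 := by
    rw [Real.sqrt_le_left hk.le]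
    nlinarith [Nat.cast_nonneg (α := ℝ) k]
  calc ‖c‖ ≤ ‖J k c‖ * Real.sqrt ((k : ℝ) + 1) := h3
    _ ≤ ‖J k c‖ * ((k : ℝ) + 1) := mul_le_mul_of_nonneg_left h5 (norm_nonneg _)
    _ = ((k : ℝ) + 1) * ‖J k c‖ := mul_comm _ _

/-- `J` restricted to `Hk k`, with values in the tree space. -/
noncomputable def Jk (k : ℕ) : Hk k →L[ℝ] tspace (pk_class k) :=
  ((J k).comp (Hk k).subtypeL).codRestrict (tspace (pk_class k)) (fun c => J_mem k c)

theorem Jk_coe (k : ℕ) (c : Hk k) : ((Jk k c : tspace (pk_class k)) : Amb (Pk k)) = J k c := rfl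

theorem Jk_bound (k : ℕ) (c : Hk k) : ‖c‖ ≤ ((k : ℝ) + 1) * ‖Jk k c‖ :=
  norm_le_J k c c.2

theorem Jk_surjective (k : ℕ) : Function.Surjective (Jk k) := by
  have hanti : AntilipschitzWith ((k : NNReal) + 1) (Jk k) :=
    (Jk k).antilipschitz_of_bound (fun c => by
      have := Jk_bound k c
      simpa using this)
  have hclosed : IsClosed (Set.range (Jk k)) :=
    hanti.isClosed_range (Jk k).uniformContinuous
  -- the range is a closed submodule containing all coordinate vectors
  have hcoord : ∀ s : List ℕ, evec (pk_class k) s ∈ LinearMap.range (Jk k : Hk k →ₗ[ℝ] _) := by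
    intro s
    by_cases hs : s.length ≤ k
    · refine ⟨⟨lp.single 2 s (1 : ℝ), fun u hu => ?_⟩, ?_⟩
      · have : u ≠ s := fun h => by subst h; omega
        rw [lp.single_apply_ne _ _ _ this]
      · apply Subtype.ext
        exact J_single k s
    · have : evec (pk_class k) s = 0 := by
        apply Subtype.ext
        exact coord_eq_zero (pk_class k) (fun f hf => hf.2.2 s (by omega))
      rw [this]; exact Submodule.zero_mem _
  intro x
  -- `x` is in the closure of the span of the coordinate vectors inside the tree space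
  have hx : x ∈ closure (Set.range (Jk k)) := by
    have hx' : (x : Amb (Pk k)) ∈ closure ((Submodule.span ℝ (Set.range (coord (pk_class k))) :
        Submodule ℝ (Amb (Pk k))) : Set (Amb (Pk k))) := x.2
    rw [Metric.mem_closure_iff] at hx' ⊢
    intro ε hε
    obtain ⟨y, hy, hxy⟩ := hx' ε hε
    have hy' : y ∈ (Submodule.span ℝ (Set.range (coord (pk_class k))) :
        Submodule ℝ (Amb (Pk k))) := hy
    have hmap : (Submodule.span ℝ (Set.range (coord (pk_class k))) :
        Submodule ℝ (Amb (Pk k))) ≤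
        (LinearMap.range (Jk k : Hk k →ₗ[ℝ] _)).map (tspace (pk_class k)).subtype := by
      rw [Submodule.span_le]
      rintro _ ⟨s, rfl⟩
      exact ⟨evec (pk_class k) s, hcoord s, rfl⟩
    obtain ⟨z, ⟨c, hc⟩, hz⟩ := hmap hy'
    refine ⟨z, ⟨c, hc⟩, ?_⟩
    have : dist x z = dist (x : Amb (Pk k)) y := by
      rw [← hz]; rfl
    rw [this]; exact hxy
  rw [hclosed.closure_eq] at hx
  exact hx

/-- the tree space of the depth-`k` class is isomorphic to the Hilbert space `Hk k`. -/
noncomputable def equivK (k : ℕ) : Hk k ≃L[ℝ] tspace (pk_class k) :=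
  ContinuousLinearEquiv.ofBijective (Jk k)
    (by
      rw [LinearMap.ker_eq_bot']
      intro c hc
      have h := Jk_bound k c
      have hc' : Jk k c = 0 := hc
      rw [hc', norm_zero, mul_zero] at h
      exact norm_le_zero_iff.1 h)
    (LinearMap.range_eq_top.2 (Jk_surjective k))

theorem block_reflexive (k : ℕ) :
    Function.Surjective (NormedSpace.inclusionInDoubleDual ℝ (tspace (pk_class k))) :=
  Crest.Agent.Helper9.reflexive_of_equiv (equivK k)
    (Crest.Agent.Helper9.reflexive_of_hilbert (Hk k))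

end Crest.Agent.Helper4
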