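import Mathlib
import Crest.Prelude.Def_TreePotentials
import Crest.Agent.Helper4.Common
import Crest.Agent.Helper4.TreeTests
import Crest.Agent.Helper4.TreeSpace
import Crest.Agent.Helper4.TreeModels
import Crest.Agent.Helper4.TreeBlocks
import Crest.Agent.Helper4.TreeHilbert

/-!
Block facts for the `l²`-sum of the depth-`k` tree spaces (S0166).
-/

set_option autoImplicit false

namespace Crest.Agent.Helper4

open Crest.AnalysisR.TreePotential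
open scoped ENNReal

/-- the blocks: tree spaces of the depth-`k` global classes. -/
abbrev Gk (k : ℕ) : Type := ↥(tspace (pk_class k))

theorem gk_core (k : ℕ) (x : Gk k) (ε : ℝ) (hε : 0 < ε) :
    ∃ F : Set (Gk k), Cof F ∧ ∀ y ∈ F, ∀ a c : ℝ, 0 ≤ a → 0 < c → a ^ 2 + c ^ 2 ≤ 1 →
      c ≤ 1 / 2 → 2 * a * ‖x‖ + c * ‖y‖ - ε ≤ ‖x + y‖ + ‖x - y‖ :=
  asymp_core (pk_class k) x hε

theorem gk_separable (k : ℕ) : TopologicalSpace.SeparableSpace (Gk k) :=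
  tspace_separable (pk_class k)

theorem gk_nontrivial (k : ℕ) : Nontrivial (Gk k) := by
  refine ⟨⟨evec (pk_class k) [], 0, fun h => ?_⟩⟩
  have h1 := one_le_norm_evec (pk_class k) (s := []) (pk_single (by simp))
  rw [h, norm_zero] at h1
  linarith

theorem gk_reflexive (k : ℕ) :
    Function.Surjective (NormedSpace.inclusionInDoubleDual ℝ (Gk k)) :=
  block_reflexive k

theorem gk_chain : ∀ K : ℕ, ∃ k : ℕ, ∃ D : ℕ → Set (Gk k), (D 0).Nonempty ∧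
    (∀ j, ∀ x ∈ D j, 1 / (1 : ℝ) ≤ ‖x‖ ∧ ‖x‖ ≤ 1) ∧
    ∀ j < K, ∀ x ∈ D j, ∀ F : Set (Gk k), Cof F → ∀ δ : ℝ, 0 < δ →
      ∃ d ∈ F, (1 / 2 : ℝ) ≤ ‖d‖ ∧ ∃ x' ∈ D (j + 1), ‖x + d - x'‖ ≤ δ := by
  intro K
  refine ⟨K + 1, fun j => {x | ∃ s : List ℕ, s.length = j + 1 ∧ j + 1 ≤ K + 1 ∧
    x = bvec (pk_class (K + 1)) s}, ⟨_, [0], rfl, by omega, rfl⟩, ?_, ?_⟩
  · rintro j x ⟨s, hs, hj, rfl⟩
    refine ⟨?_, norm_bvec_le _ s⟩
    rw [div_one]
    exact one_le_norm_bvec _ (pk_single (by omega))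
  · rintro j hj x ⟨s, hs, -, rfl⟩ F hF δ hδ
    obtain ⟨d, hdF, hd, n, hn⟩ := tree_step (pk_class (K + 1)) s
      (fun n => pk_single (by simp; omega)) hF hδ
    exact ⟨d, hdF, hd, _, ⟨n :: s, by simp [hs], by omega, rfl⟩, hn⟩

end Crest.Agent.Helper4
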